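import Vale.Agent.P267.H775.Level
import Mathlib.LinearAlgebra.Matrix.SesquilinearForm
import Mathlib.LinearAlgebra.Matrix.ToLin
import Mathlib.LinearAlgebra.Matrix.Dual

/-!
Elkies' theorem: a positive definite unimodular lattice of rank `n` all of whose characteristic
vectors have norm at least `n` has an orthonormal basis.
-/

open MeasureTheory Set Complex TopologicalSpace Filter Matrix Module
open scoped Real Topology

namespace Vale.Agent.P267.H775

noncomputable section

set_option linter.unusedSectionVars false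

variable {ι : Type*} [Fintype ι] [DecidableEq ι]

lemma tendsto_A_real (D : Dat ι) :
    Tendsto (fun t : ℝ => (D.A (I * t) - 1) * cexp (π * t)) atTop (𝓝 (8 * (r1 D.G : ℂ))) := by
  have h1 := tendsto_Th_real D.pos D.hM D.detM
  -- the theta series tends to one
  have h2 : Tendsto (fun t : ℝ => Th D.M (I * t) 0) atTop (𝓝 1) := by
    have h3 : Tendsto (fun t : ℝ => cexp (-(π * t))) atTop (𝓝 0) := by
      rw [tendsto_zero_iff_norm_tendsto_zero]
      have h4 := (Real.tendsto_exp_neg_atTop_nhds_zero.comp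
          (tendsto_id.const_mul_atTop Real.pi_pos))
      refine h4.congr fun t => ?_
      simp only [Function.comp, id]
      rw [Complex.norm_exp]
      congr 1
      have : (-(π * t) : ℂ) = ((-(π * t) : ℝ) : ℂ) := by push_cast; ring
      rw [this, Complex.ofReal_re]
    have h5 := (h1.mul h3).add_const 1
    rw [mul_zero, zero_add] at h5
    refine h5.congr fun t => ?_
    rw [mul_assoc, ← Complex.exp_add]
    simp
  have h6 : Tendsto (fun t : ℝ => ((Th D.M (I * t) 0 - 1) * cexp (π * t)) *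
      ∑ j ∈ Finset.range 8, (Th D.M (I * t) 0) ^ j) atTop (𝓝 ((r1 D.G : ℂ) * 8)) := by
    refine h1.mul ?_
    have : Tendsto (fun t : ℝ => ∑ j ∈ Finset.range 8, (Th D.M (I * t) 0) ^ j) atTop
        (𝓝 (∑ j ∈ Finset.range 8, (1 : ℂ) ^ j)) :=
      tendsto_finsetSum _ fun j _ => h2.pow j
    simpa using this
  rw [mul_comm]
  refine h6.congr fun t => ?_
  unfold Dat.A
  have := geom_sum_mul (Th D.M (I * t) 0) 8
  rw [← this]
  ring

lemma r1_eq (D E : Dat ι) : r1 D.G = r1 E.G := by
  have h1 := tendsto_A_real D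
  have h2 := tendsto_A_real E
  have h3 : Tendsto (fun t : ℝ => (D.A (I * t) - 1) * cexp (π * t)) atTop
      (𝓝 (8 * (r1 E.G : ℂ))) := by
    refine h2.congr' ?_
    filter_upwards [eventually_gt_atTop 0] with t ht
    have him : 0 < (I * (t : ℂ)).im := by simpa using ht
    have := A_eq D E ⟨I * t, him⟩
    change D.A (I * t) = E.A (I * t) at this
    rw [this]
  have h4 := tendsto_nhds_unique h1 h3
  have h5 : (r1 D.G : ℂ) = (r1 E.G : ℂ) := mul_left_cancel₀ (by norm_num) h4
  exact_mod_cast h5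

lemma qz_one (v : ι → ℤ) : qz (1 : Matrix ι ι ℤ) v = ∑ i, v i ^ 2 := by
  unfold qz
  rw [one_mulVec]
  simp [dotProduct, sq]

/-- The standard lattice. -/
def stdDat (ι : Type*) [Fintype ι] [DecidableEq ι] : Dat ι where
  G := 1
  sym := transpose_one
  det := det_one
  pos := by
    intro v hv
    rw [qz_one]
    obtain ⟨i, hi⟩ := Function.ne_iff.1 hv
    exact Finset.sum_pos' (fun j _ => sq_nonneg _) ⟨i, Finset.mem_univ i, by
      have : v i ≠ 0 := hi
      positivity⟩
  long := by
    intro w hw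
    rw [qz_one]
    have h1 : ∀ i, (1 : ℤ) ≤ w i ^ 2 := by
      intro i
      obtain ⟨m, hm⟩ := hw (Pi.single i 1)
      rw [qz_one, one_mulVec, single_dotProduct, one_mul] at hm
      have h2 : ∑ j, ((Pi.single i 1 : ι → ℤ) j) ^ 2 = 1 := by
        rw [Finset.sum_eq_single i]
        · simp
        · intro j _ hj
          simp [hj]
        · simp
      rw [h2] at hm
      have h3 : w i ≠ 0 := by omega
      have : 0 < w i ^ 2 := by positivity
      omega
    calc (Fintype.card ι : ℤ) = ∑ _i : ι, (1 : ℤ) := by simp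
      _ ≤ ∑ i, w i ^ 2 := Finset.sum_le_sum fun i _ => h1 i
  M := 1
  hM := by
    ext i j
    simp [rl, Matrix.one_apply]
  hd := by simp
  w := fun _ => 1
  hw := by
    intro v
    rw [one_mulVec, qz_one]
    have : v ⬝ᵥ (fun _ : ι => (1 : ℤ)) - ∑ i, v i ^ 2 = ∑ i, (v i - v i ^ 2) := by
      simp [dotProduct]
    rw [this]
    refine Finset.dvd_sum fun i _ => ?_
    rcases Int.even_or_odd (v i) with ⟨k, hk⟩ | ⟨k, hk⟩
    · rw [hk]; exact ⟨k - 2 * k ^ 2, by ring⟩
    · rw [hk]; exact ⟨-(2 * k + 1) * k, by ring⟩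

lemma two_card_le : 2 * Fintype.card ι ≤ r1 (1 : Matrix ι ι ℤ) := by
  have hfin := finite_norm_one (stdDat ι).hM (stdDat ι).detM
  change {v : ι → ℤ | qz (1 : Matrix ι ι ℤ) v = 1}.Finite at hfin
  let f : ι × Bool → (ι → ℤ) := fun p => Pi.single p.1 (if p.2 then 1 else -1)
  have hinj : Function.Injective f := by
    rintro ⟨i, b⟩ ⟨j, c⟩ h
    have hij : i = j := by
      by_contra hne
      have := congrFun h i
      simp only [f, Pi.single_eq_same, Pi.single_eq_of_ne hne] at this
      split_ifs at this <;> omega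
    subst hij
    have := congrFun h i
    simp only [f, Pi.single_eq_same] at this
    cases b <;> cases c <;> simp_all
  have hmem : ∀ p, f p ∈ {v : ι → ℤ | qz (1 : Matrix ι ι ℤ) v = 1} := by
    rintro ⟨i, b⟩
    simp only [Set.mem_ofPred_eq, qz_one, f]
    rw [Finset.sum_eq_single i]
    · cases b <;> simp
    · intro j _ hj
      simp [hj]
    · simp
  have h1 : (Set.range f).ncard ≤ Set.ncard {v : ι → ℤ | qz (1 : Matrix ι ι ℤ) v = 1} :=
    Set.ncard_le_ncard (by rintro _ ⟨p, rfl⟩; exact hmem p) hfin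
  have h2 : (Set.range f).ncard = Fintype.card (ι × Bool) := by
    rw [← Set.image_univ, Set.ncard_image_of_injective _ hinj, Set.ncard_univ,
      Nat.card_eq_fintype_card]
  rw [h2, Fintype.card_prod, Fintype.card_bool] at h1
  unfold r1
  omega

/-- The bilinear form. -/
def bl (G : Matrix ι ι ℤ) (u v : ι → ℤ) : ℤ := u ⬝ᵥ (G *ᵥ v)

lemma bl_comm {G : Matrix ι ι ℤ} (hs : Gᵀ = G) (u v : ι → ℤ) : bl G u v = bl G v u := by
  unfold bl
  rw [dotProduct_mulVec, ← mulVec_transpose, hs, dotProduct_comm]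

lemma qz_sub {G : Matrix ι ι ℤ} (hs : Gᵀ = G) (u v : ι → ℤ) :
    qz G (u - v) = qz G u + qz G v - 2 * bl G u v := by
  have h := bl_comm hs u v
  unfold bl at h
  unfold qz bl
  rw [mulVec_sub, dotProduct_sub, sub_dotProduct, sub_dotProduct]
  linarith

lemma qz_add {G : Matrix ι ι ℤ} (hs : Gᵀ = G) (u v : ι → ℤ) :
    qz G (u + v) = qz G u + qz G v + 2 * bl G u v := by
  have h := bl_comm hs u v
  unfold bl at h
  unfold qz bl
  rw [mulVec_add, dotProduct_add, add_dotProduct, add_dotProduct]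
  linarith

lemma orth {G : Matrix ι ι ℤ} (hs : Gᵀ = G) (hp : ZPos G) {u v : ι → ℤ} (hu : qz G u = 1)
    (hv : qz G v = 1) (h1 : u ≠ v) (h2 : u ≠ -v) : bl G u v = 0 := by
  have a := hp (u - v) (sub_ne_zero.2 h1)
  have b := hp (u + v) (fun h => h2 (eq_neg_of_add_eq_zero_left h))
  rw [qz_sub hs] at a
  rw [qz_add hs] at b
  omega

/-- A lattice with at least `2n` vectors of norm one has an orthonormal basis. -/
lemma exists_basis_of_card {G : Matrix ι ι ℤ} (hs : Gᵀ = G) (hp : ZPos G)
    (hfin : {v : ι → ℤ | qz G v = 1}.Finite) (hc : 2 * Fintype.card ι ≤ r1 G) :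
    ∃ U : Matrix ι ι ℤ, Uᵀ * G * U = 1 := by
  classical
  set S : Finset (ι → ℤ) := hfin.toFinset with hS
  have hSc : S.card = r1 G := (Set.ncard_eq_toFinset_card _ hfin).symm
  have hSm : ∀ v, v ∈ S ↔ qz G v = 1 := fun v => by simp [hS]
  -- families of pairwise orthogonal vectors
  set P : Finset (Finset (ι → ℤ)) :=
    S.powerset.filter (fun T => ∀ u ∈ T, ∀ v ∈ T, u ≠ v → bl G u v = 0) with hP
  have hne : P.Nonempty := ⟨∅, by simp [hP]⟩
  obtain ⟨T, hT, hmax⟩ := P.exists_max_image Finset.card hne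
  rw [hP, Finset.mem_filter, Finset.mem_powerset] at hT
  obtain ⟨hTS, hTo⟩ := hT
  have hcov : S ⊆ T ∪ T.image (fun v => -v) := by
    intro v hv
    by_contra hnot
    rw [Finset.mem_union, Finset.mem_image] at hnot
    push Not at hnot
    obtain ⟨h1, h2⟩ := hnot
    have hv1 := (hSm v).1 hv
    have hnew : insert v T ∈ P := by
      rw [hP, Finset.mem_filter, Finset.mem_powerset]
      refine ⟨Finset.insert_subset hv hTS, ?_⟩
      have key : ∀ u ∈ T, bl G v u = 0 := by
        intro u hu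
        have hu1 := (hSm u).1 (hTS hu)
        refine orth hs hp hv1 hu1 ?_ ?_
        · rintro rfl; exact h1 hu
        · intro h; exact h2 u hu h.symm
      intro a ha b hb hab
      rw [Finset.mem_insert] at ha hb
      rcases ha with rfl | ha <;> rcases hb with rfl | hb
      · exact absurd rfl hab
      · exact key b hb
      · rw [bl_comm hs]; exact key a ha
      · exact hTo a ha b hb hab
    have := hmax _ hnew
    rw [Finset.card_insert_of_notMem h1] at this
    omega
  have hcard : Fintype.card ι ≤ T.card := by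
    have h1 := Finset.card_le_card hcov
    have h2 := Finset.card_union_le T (T.image (fun v => -v))
    have h3 : (T.image (fun v : ι → ℤ => -v)).card ≤ T.card := Finset.card_image_le
    omega
  obtain ⟨f⟩ : Nonempty (ι ↪ T) := by
    rw [Function.Embedding.nonempty_iff_card_le]
    simpa using hcard
  obtain ⟨U, hU⟩ : ∃ U : Matrix ι ι ℤ, U = Matrix.of fun j i => (f i : ι → ℤ) j := ⟨_, rfl⟩
  refine ⟨U, ?_⟩
  ext i k
  have h1 : (Uᵀ * G * U) i k = bl G (f i) (f k) := by
    rw [Matrix.mul_assoc, hU]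
    rfl
  rw [h1, Matrix.one_apply]
  split_ifs with hik
  · rw [hik]
    exact (hSm _).1 (hTS (f k).2)
  · refine hTo _ (f i).2 _ (f k).2 ?_
    intro h
    exact hik (f.injective (Subtype.ext h))

/-- **Elkies' theorem**, matrix form. -/
theorem elkies_matrix (G : Matrix ι ι ℤ) (hs : Gᵀ = G) (hu : IsUnit G.det)
    (hp : ∀ v : ι → ℤ, v ≠ 0 → 0 < v ⬝ᵥ (G *ᵥ v))
    (hlong : ∀ w : ι → ℤ, (∀ v : ι → ℤ, (2 : ℤ) ∣ v ⬝ᵥ (G *ᵥ w) - v ⬝ᵥ (G *ᵥ v)) →
      (Fintype.card ι : ℤ) ≤ w ⬝ᵥ (G *ᵥ w)) :
    ∃ U : Matrix ι ι ℤ, IsUnit U.det ∧ Uᵀ * G * U = 1 := by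
  have hdet : G.det = 1 := by
    have hps : (rl G).PosSemidef := by
      refine Matrix.PosSemidef.of_dotProduct_mulVec_nonneg ?_ fun x => ?_
      · ext i j
        have := congrFun (congrFun hs i) j
        simp only [transpose_apply] at this
        simp [rl, this]
      · simpa using real_nonneg G hp x
    have h1 := hps.det_nonneg
    have h2 : (rl G).det = ((G.det : ℤ) : ℝ) := by
      have : (rl G) = (Int.castRingHom ℝ).mapMatrix G := rfl
      rw [this, ← RingHom.map_det]
      simp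
    rw [h2] at h1
    have h3 : 0 ≤ G.det := by exact_mod_cast h1
    rcases Int.isUnit_iff.1 hu with h | h
    · exact h
    · omega
  obtain ⟨M, hM, hd⟩ := exists_sqrt G hs hp hdet
  obtain ⟨w, hw⟩ := exists_char hs hdet
  let D : Dat ι := ⟨G, hs, hdet, hp, hlong, M, hM, hd, w, hw⟩
  have h1 := r1_eq D (stdDat ι)
  have h2 : 2 * Fintype.card ι ≤ r1 G := by
    have h3 : r1 G = r1 (1 : Matrix ι ι ℤ) := h1
    rw [h3]
    exact two_card_le
  obtain ⟨U, hU⟩ := exists_basis_of_card hs hp (finite_norm_one hM D.detM) h2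
  refine ⟨U, ?_, hU⟩
  have h4 := congrArg Matrix.det hU
  rw [det_mul, det_mul, det_transpose, hdet, mul_one, det_one] at h4
  exact IsUnit.of_mul_eq_one _ h4

end

end Vale.Agent.P267.H775
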