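import Vale.Agent.P267.H775.Poisson
import Mathlib.NumberTheory.ModularForms.JacobiTheta.TwoVariable
import Mathlib.Analysis.Complex.LocallyUniformLimit
import Mathlib.MeasureTheory.Measure.Lebesgue.Basic
import Mathlib.LinearAlgebra.Matrix.NonsingularInverse

/-!
Gaussian sums over `ℤ^ι` for a positive definite quadratic form.
-/

open MeasureTheory Set Complex TopologicalSpace Filter Matrix
open scoped Real Topology

namespace Vale.Agent.P267.H775

noncomputable section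

set_option linter.unusedSectionVars false

variable {ι : Type*} [Fintype ι] [DecidableEq ι]

/-- Sums of products over `ℤ^ι`. -/
lemma summable_pi_prod {g : ℤ → ℝ} (hg0 : ∀ m, 0 ≤ g m) (hg : Summable g) :
    Summable (fun n : ι → ℤ => ∏ i, g (n i)) := by
  refine summable_of_sum_le (c := (∑' m, g m) ^ Fintype.card ι)
    (fun n => Finset.prod_nonneg fun i _ => hg0 _) fun s => ?_
  have h1 : ∑ n ∈ s, ∏ i, g (n i) ≤
      ∑ n ∈ Fintype.piFinset (fun i => s.image (fun n => n i)), ∏ i, g (n i) := by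
    refine Finset.sum_le_sum_of_subset_of_nonneg ?_ fun n _ _ =>
      Finset.prod_nonneg fun i _ => hg0 _
    intro n hn
    rw [Fintype.mem_piFinset]
    intro i
    exact Finset.mem_image_of_mem (fun n : ι → ℤ => n i) hn
  refine h1.trans ?_
  rw [← Finset.prod_univ_sum (fun i => s.image (fun n => n i)) (fun _ m => g m)]
  calc ∏ i : ι, ∑ m ∈ s.image (fun n => n i), g m ≤ ∏ _i : ι, ∑' m, g m :=
        Finset.prod_le_prod (fun i _ => Finset.sum_nonneg fun m _ => hg0 m)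
          (fun i _ => hg.sum_le_tsum _ (fun m _ => hg0 m))
    _ = (∑' m, g m) ^ Fintype.card ι := by simp

/-- The quadratic form `|M x|^2`. -/
def qf (M : Matrix ι ι ℝ) (x : ι → ℝ) : ℝ := ∑ i, ((M *ᵥ x) i) ^ 2

lemma qf_nonneg (M : Matrix ι ι ℝ) (x : ι → ℝ) : 0 ≤ qf M x :=
  Finset.sum_nonneg fun _ _ => sq_nonneg _

lemma continuous_qf (M : Matrix ι ι ℝ) : Continuous (qf M) := by
  unfold qf
  fun_prop

lemma exists_lower (M : Matrix ι ι ℝ) (hM : M.det ≠ 0) :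
    ∃ c : ℝ, 0 < c ∧ ∀ x, c * ∑ i, x i ^ 2 ≤ qf M x := by
  set C : ℝ := ∑ i, ∑ j, (M⁻¹ i j) ^ 2 with hC
  have hC0 : 0 ≤ C := Finset.sum_nonneg fun i _ => Finset.sum_nonneg fun j _ => sq_nonneg _
  refine ⟨(C + 1)⁻¹, by positivity, fun x => ?_⟩
  rw [inv_mul_le_iff₀ (by positivity)]
  have hx : x = M⁻¹ *ᵥ (M *ᵥ x) := by
    rw [mulVec_mulVec, nonsing_inv_mul _ (isUnit_iff_ne_zero.2 hM), one_mulVec]
  have h1 : ∀ i, x i ^ 2 ≤ (∑ j, (M⁻¹ i j) ^ 2) * qf M x := by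
    intro i
    conv_lhs => rw [hx]
    exact Finset.sum_mul_sq_le_sq_mul_sq Finset.univ (fun j => M⁻¹ i j) (fun j => (M *ᵥ x) j)
  calc ∑ i, x i ^ 2 ≤ ∑ i, (∑ j, (M⁻¹ i j) ^ 2) * qf M x := Finset.sum_le_sum fun i _ => h1 i
    _ = C * qf M x := by rw [← Finset.sum_mul]
    _ ≤ (C + 1) * qf M x := by
        have := qf_nonneg M x
        nlinarith

/-- The Gaussian. -/
def gau (M : Matrix ι ι ℝ) (τ : ℂ) : C(ι → ℝ, ℂ) where
  toFun x := cexp (π * I * τ * (qf M x : ℝ))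
  continuous_toFun := by
    have := continuous_qf M
    fun_prop

lemma gau_apply (M : Matrix ι ι ℝ) (τ : ℂ) (x : ι → ℝ) :
    gau M τ x = cexp (π * I * τ * (qf M x : ℝ)) := rfl

lemma norm_gau (M : Matrix ι ι ℝ) (τ : ℂ) (x : ι → ℝ) :
    ‖gau M τ x‖ = Real.exp (-π * τ.im * qf M x) := by
  rw [gau_apply, Complex.norm_exp]
  congr 1
  have : (π * I * τ * (qf M x : ℝ) : ℂ) = ((π * qf M x : ℝ) : ℂ) * (I * τ) := by
    push_cast; ring
  rw [this, Complex.re_ofReal_mul]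
  simp
  ring

/-- Uniform summable bound for translates by vectors in a bounded set. -/
lemma exists_bound (M : Matrix ι ι ℝ) (hM : M.det ≠ 0) (R T : ℝ) (hT : 0 < T) :
    ∃ u : (ι → ℤ) → ℝ, (∀ n, 0 ≤ u n) ∧ Summable u ∧
      ∀ (n : ι → ℤ) (x : ι → ℝ), (∀ i, |x i| ≤ R) →
      Real.exp (-π * T * qf M (x + toR n)) ≤ u n := by
  obtain ⟨c, hc, hlow⟩ := exists_lower M hM
  have hs : Summable (fun m : ℤ => Real.exp (-π * (T * c * (m : ℝ) ^ 2 - 2 * (T * c * R) * |(m : ℝ)|))) := by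
    have := summable_pow_mul_jacobiTheta₂_term_bound (T * c * R) (mul_pos hT hc) 0
    simpa using this
  obtain ⟨g, hg⟩ : ∃ g : ℤ → ℝ, g = fun m : ℤ =>
    Real.exp (-π * (T * c * (m : ℝ) ^ 2 - 2 * (T * c * R) * |(m : ℝ)|)) := ⟨_, rfl⟩
  have hg0 : ∀ m, 0 ≤ g m := fun m => by rw [hg]; exact (Real.exp_pos _).le
  rw [← hg] at hs
  refine ⟨fun n => ∏ i, g (n i), fun n => Finset.prod_nonneg fun i _ => hg0 _,
    summable_pi_prod (ι := ι) hg0 hs, fun n x hx => ?_⟩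
  have hgn : (∏ i, g (n i)) =
      Real.exp (∑ i, -π * (T * c * (n i : ℝ) ^ 2 - 2 * (T * c * R) * |(n i : ℝ)|)) := by
    rw [Real.exp_sum, hg]
  change Real.exp (-π * T * qf M (x + toR n)) ≤ ∏ i, g (n i)
  rw [hgn]
  refine Real.exp_le_exp.2 ?_
  have h1 := hlow (x + toR n)
  have h2 : ∀ i, (n i : ℝ) ^ 2 - 2 * R * |(n i : ℝ)| ≤ ((x + toR n) i) ^ 2 := by
    intro i
    simp only [Pi.add_apply, toR_apply]
    have h3 := hx i
    have h4 : |x i * (n i : ℝ)| ≤ R * |(n i : ℝ)| := by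
      rw [abs_mul]
      exact mul_le_mul_of_nonneg_right h3 (abs_nonneg _)
    have h5 := neg_abs_le (x i * (n i : ℝ))
    nlinarith [sq_nonneg (x i)]
  have h3 : ∑ i, ((n i : ℝ) ^ 2 - 2 * R * |(n i : ℝ)|) ≤ ∑ i, ((x + toR n) i) ^ 2 :=
    Finset.sum_le_sum fun i _ => h2 i
  have h4 : c * ∑ i, ((n i : ℝ) ^ 2 - 2 * R * |(n i : ℝ)|) ≤ qf M (x + toR n) :=
    (mul_le_mul_of_nonneg_left h3 hc.le).trans h1
  have h5 : ∑ i, -π * (T * c * (n i : ℝ) ^ 2 - 2 * (T * c * R) * |(n i : ℝ)|) =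
      -π * T * (c * ∑ i, ((n i : ℝ) ^ 2 - 2 * R * |(n i : ℝ)|)) := by
    rw [Finset.mul_sum, Finset.mul_sum]
    refine Finset.sum_congr rfl fun i _ => ?_
    ring
  rw [h5]
  have h6 : 0 < π * T := mul_pos Real.pi_pos hT
  nlinarith

lemma locSum_gau (M : Matrix ι ι ℝ) (hM : M.det ≠ 0) {τ : ℂ} (hτ : 0 < τ.im) :
    LocSum (gau M τ) := by
  intro K
  obtain ⟨R, hR⟩ := K.isCompact.isBounded.exists_norm_le
  obtain ⟨u, hu0, hu, hle⟩ := exists_bound M hM R τ.im hτ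
  refine Summable.of_norm_bounded hu fun n => ?_
  rw [norm_norm, ContinuousMap.norm_le _ (hu0 n)]
  rintro ⟨x, hx⟩
  have : ‖gau M τ (x + toR n)‖ ≤ u n := by
    rw [norm_gau]
    exact hle n x fun i => (norm_le_pi_norm x i).trans (hR x hx)
  exact this

lemma neg_I_mul_re (τ : ℂ) (hτ : 0 < τ.im) : 0 < (-(π * I * τ)).re := by
  simp only [neg_re, mul_re, ofReal_re, I_re, mul_zero, ofReal_im, I_im, mul_one, sub_self,
    mul_im, zero_mul, add_zero, zero_sub, neg_neg]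
  exact mul_pos Real.pi_pos hτ

lemma integrable_gau (M : Matrix ι ι ℝ) (hM : M.det ≠ 0) {τ : ℂ} (hτ : 0 < τ.im) :
    Integrable (gau M τ : (ι → ℝ) → ℂ) := by
  have h0 := GaussianFourier.integrable_cexp_neg_mul_sum_add (ι := ι) (neg_I_mul_re τ hτ) (fun _ => 0)
  have h1 : Integrable (fun y : ι → ℝ => cexp (π * I * τ * ((∑ i, y i ^ 2 : ℝ) : ℂ))) := by
    convert h0 using 2 with y
    simp
  have hmap := Real.map_matrix_volume_pi_eq_smul_volume_pi hM
  have h2 : Integrable (fun y : ι → ℝ => cexp (π * I * τ * ((∑ i, y i ^ 2 : ℝ) : ℂ)))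
      (Measure.map (toLin' M) volume) := by
    rw [hmap]
    exact h1.smul_measure ENNReal.ofReal_ne_top
  have hme : Measurable (toLin' M : (ι → ℝ) → (ι → ℝ)) :=
    (LinearMap.continuous_on_pi (toLin' M)).measurable
  have h3 := h2.comp_measurable hme
  have h4 : (gau M τ : (ι → ℝ) → ℂ) =
      (fun y : ι → ℝ => cexp (π * I * τ * ((∑ i, y i ^ 2 : ℝ) : ℂ))) ∘ (toLin' M) := by
    funext x
    simp only [Function.comp, gau_apply, qf, toLin'_apply]
  rw [h4]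
  exact h3

/-- Fourier transform of the Gaussian. -/
lemma fc_gau (M : Matrix ι ι ℝ) (hM : M.det ≠ 0) {τ : ℂ} (hτ : 0 < τ.im) (k : ι → ℤ) :
    fc (gau M τ) k = (|M.det|⁻¹ : ℝ) * ((I / τ) ^ (Fintype.card ι / 2 : ℂ) *
      cexp (π * I * (-1 / τ) * (qf (M⁻¹)ᵀ (toR k) : ℝ))) := by
  have hτ0 : τ ≠ 0 := by rintro rfl; simp at hτ
  set c : ι → ℂ := fun i => -(2 * π * I) * (((M⁻¹)ᵀ *ᵥ toR k) i : ℝ) with hc
  set F : (ι → ℝ) → ℂ := fun y => cexp (-(-(π * I * τ)) * ∑ i, (y i : ℂ) ^ 2 + ∑ i, c i * y i)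
    with hF
  have hmap := Real.map_matrix_volume_pi_eq_smul_volume_pi hM
  have hme : Measurable (toLin' M : (ι → ℝ) → (ι → ℝ)) :=
    (LinearMap.continuous_on_pi (toLin' M)).measurable
  have h1 : ∀ x : ι → ℝ, chr (-k) x * gau M τ x = F (toLin' M x) := by
    intro x
    rw [gau_apply, chr, ← Complex.exp_add, hF]
    simp only
    congr 1
    have e1 : (π * I * τ * (qf M x : ℝ) : ℂ) =
        -(-(π * I * τ)) * ∑ i, (((toLin' M x) i : ℝ) : ℂ) ^ 2 := by
      simp only [qf, toLin'_apply]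
      push_cast
      ring
    have e2 : (2 * π * I * ∑ i, (((-k) i : ℤ) : ℂ) * (x i : ℂ)) =
        ∑ i, c i * (((toLin' M x) i : ℝ) : ℂ) := by
      have e3 : ∑ i, ((M⁻¹)ᵀ *ᵥ toR k) i * (M *ᵥ x) i = ∑ i, toR k i * x i := by
        have : ((M⁻¹)ᵀ *ᵥ toR k) ⬝ᵥ (M *ᵥ x) = toR k ⬝ᵥ x := by
          rw [mulVec_transpose, ← dotProduct_mulVec, mulVec_mulVec,
            nonsing_inv_mul _ (isUnit_iff_ne_zero.2 hM), one_mulVec]
        exact this
      have e4 : (∑ i, (k i : ℂ) * (x i : ℂ)) =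
          ((∑ i, ((M⁻¹)ᵀ *ᵥ toR k) i * (M *ᵥ x) i : ℝ) : ℂ) := by
        rw [e3]; push_cast; rfl
      have e5 : (∑ i, (((-k) i : ℤ) : ℂ) * (x i : ℂ)) = - ∑ i, (k i : ℂ) * (x i : ℂ) := by
        rw [← Finset.sum_neg_distrib]
        refine Finset.sum_congr rfl fun i _ => ?_
        simp
      rw [e5, e4]
      simp only [hc, toLin'_apply]
      push_cast
      rw [mul_neg, Finset.mul_sum, ← Finset.sum_neg_distrib]
      refine Finset.sum_congr rfl fun i _ => ?_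
      ring
    rw [e1, e2, add_comm]
  unfold fc
  simp_rw [h1]
  rw [← integral_map (φ := (toLin' M : (ι → ℝ) → (ι → ℝ))) (f := F) hme.aemeasurable
    (by
      have : Continuous F := by fun_prop
      exact this.aestronglyMeasurable), hmap, integral_smul_measure]
  have h2 := GaussianFourier.integral_cexp_neg_mul_sum_add (ι := ι) (neg_I_mul_re τ hτ) c
  rw [hF]
  simp only at h2 ⊢
  rw [h2]
  rw [ENNReal.toReal_ofReal (abs_nonneg _), abs_inv, Complex.real_smul]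
  congr 2
  · congr 1
    field_simp
    ring_nf
    simp
  · congr 1
    have e6 : ∑ i, c i ^ 2 = -(4 * π ^ 2) * (qf (M⁻¹)ᵀ (toR k) : ℝ) := by
      simp only [hc, qf]
      push_cast
      rw [Finset.mul_sum]
      refine Finset.sum_congr rfl fun i _ => ?_
      ring_nf
      simp
    rw [e6]
    field_simp
    ring_nf
    simp

end

end Vale.Agent.P267.H775
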