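import Vale.Agent.P267.H775.ThetaAn
import Mathlib.NumberTheory.ModularForms.Discriminant

/-!
Two positive definite unimodular forms whose characteristic vectors are long have the same
theta series (up to an eighth root of unity).
-/

open MeasureTheory Set Complex TopologicalSpace Filter Matrix
open scoped Real Topology UpperHalfPlane MatrixGroups ModularForm Manifold

namespace Vale.Agent.P267.H775

noncomputable section

set_option linter.unusedSectionVars false

variable {ι : Type*} [Fintype ι] [DecidableEq ι]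

/-- The data of a form whose characteristic vectors are long. -/
structure Dat (ι : Type*) [Fintype ι] [DecidableEq ι] where
  G : Matrix ι ι ℤ
  sym : Gᵀ = G
  det : G.det = 1
  pos : ZPos G
  long : ∀ w, IsChar G w → (Fintype.card ι : ℤ) ≤ qz G w
  M : Matrix ι ι ℝ
  hM : Mᵀ * M = rl G
  hd : |M.det| = 1
  w : ι → ℤ
  hw : IsChar G w

namespace Dat

variable (D : Dat ι)

lemma detM : D.M.det ≠ 0 := by
  intro h
  have := D.hd
  rw [h] at this
  simp at this

/-- eighth power of the theta series -/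
def A (τ : ℂ) : ℂ := (Th D.M τ 0) ^ 8

/-- eighth power of the shadow -/
def C (τ : ℂ) : ℂ := (Th D.M τ ((1 / 2 : ℝ) • toR D.w)) ^ 8

lemma cpow_eight {τ : ℂ} (hτ : 0 < τ.im) (n : ℕ) :
    ((I / τ) ^ ((n : ℂ) / 2)) ^ 8 = (τ ^ (4 * n))⁻¹ := by
  have hτ0 : τ ≠ 0 := by rintro rfl; simp at hτ
  rw [← cpow_nat_mul]
  have : ((8 : ℕ) : ℂ) * ((n : ℂ) / 2) = ((4 * n : ℕ) : ℂ) := by push_cast; ring
  rw [this, cpow_natCast, div_pow, pow_mul I, I_pow_four, one_pow, one_div]

lemma A_S {τ : ℂ} (hτ : 0 < τ.im) :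
    D.A (-1 / τ) = τ ^ (4 * Fintype.card ι) * D.A τ := by
  have hτ0 : τ ≠ 0 := by rintro rfl; simp at hτ
  have h := Th_zero_S D.det D.hM D.hd hτ
  unfold A
  rw [h, mul_pow, cpow_eight hτ, ← mul_assoc, mul_inv_cancel₀ (pow_ne_zero _ hτ0), one_mul]

lemma A_S' {τ : ℂ} (hτ : 0 < τ.im) :
    D.A (-1 / τ + 1) = τ ^ (4 * Fintype.card ι) * D.C τ := by
  have hτ0 : τ ≠ 0 := by rintro rfl; simp at hτ
  have h := Th_half_S D.sym D.det D.hM D.hd D.hw hτ
  unfold A C
  rw [h, mul_pow, cpow_eight hτ, ← mul_assoc, mul_inv_cancel₀ (pow_ne_zero _ hτ0), one_mul]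

lemma im_S {τ : ℂ} (hτ : 0 < τ.im) : 0 < (-1 / τ : ℂ).im := by
  have hτ0 : τ ≠ 0 := by rintro rfl; simp at hτ
  rw [neg_div, one_div, neg_im, inv_im, neg_div, neg_neg]
  exact div_pos hτ (normSq_pos.2 hτ0)

lemma C_S {τ : ℂ} (hτ : 0 < τ.im) :
    D.C (-1 / τ) = τ ^ (4 * Fintype.card ι) * D.A (τ + 1) := by
  have hτ0 : τ ≠ 0 := by rintro rfl; simp at hτ
  have h := D.A_S' (im_S hτ)
  have e : (-1 / (-1 / τ) + 1 : ℂ) = τ + 1 := by
    field_simp
  rw [e] at h
  rw [h, ← mul_assoc, ← mul_pow]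
  have : τ * (-1 / τ) = -1 := by field_simp
  rw [this, pow_mul]
  norm_num

lemma A_add_two (τ : ℂ) : D.A (τ + 2) = D.A τ := by
  unfold A
  rw [Th_zero_add_two D.hM]

lemma C_add_one (τ : ℂ) : D.C (τ + 1) = D.C τ := by
  unfold C
  rw [Th_half_add_one D.sym D.hM D.hw, mul_pow, ← Complex.exp_nat_mul]
  have : (((8 : ℕ) : ℂ) * (π * I * (qz D.G D.w : ℤ) / 4)) =
      ((qz D.G D.w : ℤ) : ℂ) * (2 * π * I) := by push_cast; ring
  rw [this, Complex.exp_int_mul_two_pi_mul_I, one_mul]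

lemma A_diff : DifferentiableOn ℂ D.A {τ | 0 < τ.im} :=
  (Th_differentiableOn D.M D.detM 0).pow 8

lemma C_diff : DifferentiableOn ℂ D.C {τ | 0 < τ.im} :=
  (Th_differentiableOn D.M D.detM _).pow 8

lemma tendsto_A : Tendsto (fun τ : ℍ => D.A τ) UpperHalfPlane.atImInfty (𝓝 1) := by
  obtain ⟨K, _, hK⟩ := norm_Th_sub_one D.pos D.hM D.detM
  have h1 : Tendsto (fun τ : ℍ => Th D.M τ 0 - 1) UpperHalfPlane.atImInfty (𝓝 0) := by
    have him : Tendsto UpperHalfPlane.im UpperHalfPlane.atImInfty atTop := tendsto_comap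
    have h2 : Tendsto (fun τ : ℍ => K * Real.exp (-π * τ.im)) UpperHalfPlane.atImInfty (𝓝 0) := by
      have h3 : Tendsto (fun t : ℝ => K * Real.exp (-π * t)) atTop (𝓝 0) := by
        have h4 := (Real.tendsto_exp_neg_atTop_nhds_zero.comp
          (tendsto_id.const_mul_atTop Real.pi_pos)).const_mul K
        rw [mul_zero] at h4
        refine h4.congr fun t => ?_
        simp only [Function.comp, id]
        congr 2
        ring
      exact h3.comp him
    refine squeeze_zero_norm' ?_ h2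
    have h5 : ∀ᶠ τ : ℍ in UpperHalfPlane.atImInfty, 1 ≤ τ.im :=
      him.eventually (eventually_ge_atTop 1)
    filter_upwards [h5] with τ hτ
    exact hK τ hτ
  have h6 : Tendsto (fun τ : ℍ => Th D.M τ 0) UpperHalfPlane.atImInfty (𝓝 1) := by
    have := h1.add_const 1
    simpa using this
  have := h6.pow 8
  simpa [A] using this

lemma C_bound : ∃ K : ℝ, ∀ τ : ℂ, 1 ≤ τ.im →
    ‖D.C τ‖ ≤ K * Real.exp (-2 * π * τ.im) ^ (Fintype.card ι) := by
  obtain ⟨K, hK0, hK⟩ := norm_Th_le D.M D.detM ((1 / 2 : ℝ) • toR D.w)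
    (c := (1 / 4 : ℝ) * (Fintype.card ι : ℝ)) (fun n => by
      rw [four_qf_half D.hM]
      have h := D.long _ (isChar_add D.hw n)
      have h2 : ((Fintype.card ι : ℤ) : ℝ) ≤ (qz D.G (D.w + 2 • n) : ℤ) := by exact_mod_cast h
      push_cast at h2
      linarith)
  refine ⟨K ^ 8, fun τ hτ => ?_⟩
  have h1 := hK τ hτ
  unfold C
  rw [norm_pow]
  refine (pow_le_pow_left₀ (norm_nonneg _) h1 8).trans (le_of_eq ?_)
  rw [mul_pow, ← Real.exp_nat_mul, ← Real.exp_nat_mul]
  congr 2
  push_cast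
  ring

end Dat

open UpperHalfPlane ModularForm SlashInvariantForm OnePoint ModularGroup

/-- The weight zero modular function. -/
def W (D E : Dat ι) (τ : ℍ) : ℂ :=
  (D.A τ - E.A τ) * (D.A ((τ : ℂ) + 1) - E.A ((τ : ℂ) + 1)) * (D.C τ - E.C τ) /
    (ModularForm.discriminant τ) ^ (Fintype.card ι)

lemma discr_S (τ : ℍ) : ModularForm.discriminant (ModularGroup.S • τ) =
    (τ : ℂ) ^ 12 * ModularForm.discriminant τ := by
  have h := congrFun discriminant_S_invariant τ
  rw [SL_slash_apply, denom_S] at h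
  have h0 : (τ : ℂ) ^ 12 ≠ 0 := pow_ne_zero _ τ.ne_zero
  rw [← h, mul_comm, mul_assoc]
  have : (τ : ℂ) ^ (-12 : ℤ) * (τ : ℂ) ^ 12 = 1 := by
    rw [_root_.zpow_neg, show (12 : ℤ) = ((12 : ℕ) : ℤ) by rfl, zpow_natCast, inv_mul_cancel₀ h0]
  rw [this, mul_one]

lemma discr_T (τ : ℍ) : ModularForm.discriminant (ModularGroup.T • τ) =
    ModularForm.discriminant τ := by
  have h := congrFun discriminant_T_invariant τ
  rw [SL_slash_apply] at h
  have hd : denom (ModularGroup.T : SL(2, ℤ)) (τ : ℂ) = 1 := by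
    rw [ModularGroup.denom_apply]
    simp [ModularGroup.coe_T]
  rw [hd, _root_.one_zpow, mul_one] at h
  exact h

lemma coe_S (τ : ℍ) : ((ModularGroup.S • τ : ℍ) : ℂ) = -1 / τ := by
  rw [modular_S_smul]
  change (-(τ : ℂ))⁻¹ = -1 / τ
  rw [inv_neg, neg_div, one_div]

lemma coe_T (τ : ℍ) : ((ModularGroup.T • τ : ℍ) : ℂ) = (τ : ℂ) + 1 := by
  rw [modular_T_smul]
  simp [add_comm]

lemma W_S (D E : Dat ι) : (W D E) ∣[(0 : ℤ)] ModularGroup.S = W D E := by
  funext τ
  rw [SL_slash_apply]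
  simp only [neg_zero, zpow_zero, mul_one]
  unfold W
  have hτ : 0 < (τ : ℂ).im := τ.2
  rw [discr_S, coe_S, D.A_S hτ, E.A_S hτ, D.A_S' hτ, E.A_S' hτ, D.C_S hτ, E.C_S hτ]
  have h0 : (τ : ℂ) ≠ 0 := τ.ne_zero
  have h1 : ModularForm.discriminant τ ≠ 0 := discriminant_ne_zero τ
  rw [div_eq_div_iff (pow_ne_zero _ (mul_ne_zero (pow_ne_zero _ h0) h1)) (pow_ne_zero _ h1),
    mul_pow, ← pow_mul]
  have : (τ : ℂ) ^ (12 * Fintype.card ι) = (τ : ℂ) ^ (4 * Fintype.card ι) *
      (τ : ℂ) ^ (4 * Fintype.card ι) * (τ : ℂ) ^ (4 * Fintype.card ι) := by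
    rw [← pow_add, ← pow_add]
    congr 1
    ring
  rw [this]
  ring

lemma W_T (D E : Dat ι) : (W D E) ∣[(0 : ℤ)] ModularGroup.T = W D E := by
  funext τ
  rw [SL_slash_apply]
  simp only [neg_zero, zpow_zero, mul_one]
  unfold W
  rw [discr_T, coe_T, D.C_add_one, E.C_add_one]
  have e : ((τ : ℂ) + 1 + 1) = (τ : ℂ) + 2 := by ring
  rw [e, D.A_add_two, E.A_add_two]
  ring

lemma W_zero (D E : Dat ι) : Tendsto (W D E) atImInfty (𝓝 0) := by
  -- the two `A` differences tend to zero, the `C` difference over `Δ^n` is bounded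
  have hA : Tendsto (fun τ : ℍ => D.A τ - E.A τ) atImInfty (𝓝 0) := by
    have := D.tendsto_A.sub E.tendsto_A
    simpa using this
  have hshift : Tendsto (fun τ : ℍ => ModularGroup.T • τ) atImInfty atImInfty := by
    unfold atImInfty
    rw [tendsto_comap_iff]
    have : (UpperHalfPlane.im ∘ fun τ : ℍ => ModularGroup.T • τ) = UpperHalfPlane.im := by
      funext τ
      simp only [Function.comp]
      have := coe_T τ
      have h2 := congrArg Complex.im this
      simpa using h2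
    rw [this]
    exact tendsto_comap
  have hB : Tendsto (fun τ : ℍ => D.A ((τ : ℂ) + 1) - E.A ((τ : ℂ) + 1)) atImInfty (𝓝 0) := by
    have := hA.comp hshift
    refine this.congr fun τ => ?_
    simp only [Function.comp, coe_T]
  have hC : (fun τ : ℍ => (D.C τ - E.C τ) / (ModularForm.discriminant τ) ^ (Fintype.card ι))
      =O[atImInfty] (fun _ => (1 : ℝ)) := by
    obtain ⟨K1, hK1⟩ := D.C_bound
    obtain ⟨K2, hK2⟩ := E.C_bound
    have h5 : ∀ᶠ τ : ℍ in atImInfty, 1 ≤ τ.im := by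
      have him : Tendsto UpperHalfPlane.im atImInfty atTop := tendsto_comap
      exact him.eventually (eventually_ge_atTop 1)
    have h6 : (fun τ : ℍ => D.C τ - E.C τ) =O[atImInfty]
        (fun τ : ℍ => Real.exp (-2 * π * τ.im) ^ (Fintype.card ι)) := by
      refine Asymptotics.IsBigO.of_bound (|K1| + |K2|) ?_
      filter_upwards [h5] with τ hτ
      have a1 := hK1 τ hτ
      have a2 := hK2 τ hτ
      have a3 : 0 ≤ Real.exp (-2 * π * τ.im) ^ (Fintype.card ι) := by positivity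
      calc ‖D.C τ - E.C τ‖ ≤ ‖D.C τ‖ + ‖E.C τ‖ := norm_sub_le _ _
        _ ≤ K1 * Real.exp (-2 * π * τ.im) ^ (Fintype.card ι) +
            K2 * Real.exp (-2 * π * τ.im) ^ (Fintype.card ι) := add_le_add a1 a2
        _ ≤ (|K1| + |K2|) * ‖Real.exp (-2 * π * τ.im) ^ (Fintype.card ι)‖ := by
            rw [Real.norm_of_nonneg a3, add_mul]
            exact add_le_add (mul_le_mul_of_nonneg_right (le_abs_self _) a3)
              (mul_le_mul_of_nonneg_right (le_abs_self _) a3)
    have h7 : (fun τ : ℍ => Real.exp (-2 * π * τ.im) ^ (Fintype.card ι)) =O[atImInfty]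
        (fun τ : ℍ => (ModularForm.discriminant τ) ^ (Fintype.card ι)) :=
      exp_isBigO_discriminant.pow _
    have h8 := h6.trans h7
    exact (Asymptotics.div_isBoundedUnder_of_isBigO h8).isBigO_one ℝ
  have h9 := (hA.mul hB)
  rw [mul_zero] at h9
  have h10 := (Asymptotics.isLittleO_one_iff ℝ).2 h9
  have h11 := h10.mul_isBigO hC
  have h12 : (fun τ : ℍ => (D.A τ - E.A τ) * (D.A ((τ : ℂ) + 1) - E.A ((τ : ℂ) + 1)) *
      ((D.C τ - E.C τ) / (ModularForm.discriminant τ) ^ (Fintype.card ι)))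
      =o[atImInfty] (fun _ => (1 : ℝ)) := by
    simpa using h11
  have h13 := (Asymptotics.isLittleO_one_iff ℝ).1 h12
  refine h13.congr fun τ => ?_
  unfold W
  ring

lemma mdiff_comp {f : ℂ → ℂ} (hf : DifferentiableOn ℂ f {τ | 0 < τ.im}) :
    MDiff (fun τ : ℍ => f τ) := by
  rw [UpperHalfPlane.mdifferentiable_iff]
  refine hf.congr fun z hz => ?_
  simp only [Function.comp]
  rw [ofComplex_apply_of_im_pos hz]

lemma diff_shift {f : ℂ → ℂ} (hf : DifferentiableOn ℂ f {τ | 0 < τ.im}) :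
    DifferentiableOn ℂ (fun z => f (z + 1)) {τ | 0 < τ.im} := by
  refine hf.comp (by fun_prop) fun z hz => ?_
  simpa using hz

lemma W_mdiff (D E : Dat ι) : MDiff (W D E) := by
  have h1 := mdiff_comp (D.A_diff.sub E.A_diff)
  have h2 := mdiff_comp ((diff_shift D.A_diff).sub (diff_shift E.A_diff))
  have h3 := mdiff_comp (D.C_diff.sub E.C_diff)
  have h4 : MDiff (fun τ : ℍ => (ModularForm.discriminant τ) ^ (Fintype.card ι)) :=
    CuspForm.discriminant.holo'.pow _
  exact ((h1.mul h2).mul h3).div h4 fun τ => pow_ne_zero _ (discriminant_ne_zero τ)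

/-- The weight zero modular form. -/
def Wform (D E : Dat ι) : ModularForm 𝒮ℒ 0 where
  toFun := W D E
  slash_action_eq' A hA := by
    obtain ⟨A, rfl⟩ := hA
    exact slash_action_generators_SL2Z (W_S D E) (W_T D E) A
  holo' := W_mdiff D E
  bdd_at_cusps' hc := by
    rw [Subgroup.IsArithmetic.isCusp_iff_isCusp_SL2Z] at hc
    rw [isBoundedAt_iff_forall_SL2Z hc]
    intro γ _
    rw [slash_action_generators_SL2Z (W_S D E) (W_T D E)]
    exact (W_zero D E).isBigO_one ℝ

lemma W_eq_zero (D E : Dat ι) : W D E = 0 := by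
  obtain ⟨c, hc⟩ := ModularFormClass.levelOne_weight_zero_const (Wform D E)
  have h1 : W D E = Function.const ℍ c := hc
  have h2 := W_zero D E
  rw [h1] at h2
  have h3 : c = 0 := tendsto_nhds_unique (tendsto_const_nhds (x := c)) h2
  rw [h1, h3]
  rfl

/-- The eighth powers of the theta series agree. -/
theorem A_eq (D E : Dat ι) (τ : ℍ) : D.A τ = E.A τ := by
  have h1 := mdiff_comp (D.A_diff.sub E.A_diff)
  have h2 := mdiff_comp ((diff_shift D.A_diff).sub (diff_shift E.A_diff))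
  have h3 := mdiff_comp (D.C_diff.sub E.C_diff)
  have h0 : ((fun τ : ℍ => D.A τ - E.A τ) * (fun τ : ℍ => D.A ((τ : ℂ) + 1) -
      E.A ((τ : ℂ) + 1))) * (fun τ : ℍ => D.C τ - E.C τ) = 0 := by
    funext τ
    have := congrFun (W_eq_zero D E) τ
    unfold W at this
    simp only [Pi.zero_apply] at this
    rw [div_eq_zero_iff] at this
    rcases this with h | h
    · simpa using h
    · exact absurd h (pow_ne_zero _ (discriminant_ne_zero τ))
  rcases (UpperHalfPlane.mul_eq_zero_iff (h1.mul h2) h3).1 h0 with h | h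
  · rcases (UpperHalfPlane.mul_eq_zero_iff h1 h2).1 h with h | h
    · have := congrFun h τ
      simpa [sub_eq_zero] using this
    · have := congrFun h (ModularGroup.T • τ)
      simp only [coe_T, Pi.zero_apply] at this
      change D.A ((τ : ℂ) + 1 + 1) - E.A ((τ : ℂ) + 1 + 1) = 0 at this
      have e : ((τ : ℂ) + 1 + 1) = (τ : ℂ) + 2 := by ring
      rw [e, D.A_add_two, E.A_add_two, sub_eq_zero] at this
      exact this
  · -- `C` agree: use `S`
    have hC : ∀ z : ℍ, D.C z = E.C z := fun z => by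
      have := congrFun h z
      simpa [sub_eq_zero] using this
    -- A(z+1) = z^{-4n} C(-1/z)
    have hA1 : ∀ z : ℍ, D.A ((z : ℂ) + 1) = E.A ((z : ℂ) + 1) := fun z => by
      have hz : 0 < (z : ℂ).im := z.2
      have a := D.C_S hz
      have b := E.C_S hz
      have c := hC (ModularGroup.S • z)
      rw [coe_S, a, b] at c
      exact mul_left_cancel₀ (pow_ne_zero _ z.ne_zero) c
    have := hA1 (ModularGroup.T • τ)
    rw [coe_T] at this
    have e : ((τ : ℂ) + 1 + 1) = (τ : ℂ) + 2 := by ring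
    rw [e, D.A_add_two, E.A_add_two] at this
    exact this

end

end Vale.Agent.P267.H775
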