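import Vale.Agent.P267.H775.Elkies
import Mathlib.LinearAlgebra.FreeModule.Finite.Basic
import Mathlib.LinearAlgebra.Dual.Basis
import Mathlib.LinearAlgebra.Matrix.BilinearForm

/-!
Elkies' theorem for modules.

* `elkies` : positive definite version.
* `elkies_neg` : negative definite version.
* `elkies_canonical` : negative definite version with a characteristic vector `K` of square `-n`.
-/

open Matrix Module

namespace Vale.Agent.P267.H775

variable {L : Type*} [AddCommGroup L] [Module.Free ℤ L] [Module.Finite ℤ L]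

/-- **Elkies' theorem.** Let `L` be a positive definite unimodular lattice of rank `n`. If every
characteristic vector `w` satisfies `n ≤ w·w` then `L` has an orthonormal basis. -/
theorem elkies (B : LinearMap.BilinForm ℤ L) (hs : ∀ x y, B x y = B y x)
    (hu : Function.Bijective (B : L → Module.Dual ℤ L))
    (hp : ∀ x, x ≠ 0 → 0 < B x x)
    (hlong : ∀ w : L, (∀ x, (2 : ℤ) ∣ B x w - B x x) → (Module.finrank ℤ L : ℤ) ≤ B w w) :
    ∃ b : Basis (Fin (Module.finrank ℤ L)) ℤ L, ∀ i j, B (b i) (b j) = if i = j then 1 else 0 := by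
  classical
  let c : Basis (Fin (Module.finrank ℤ L)) ℤ L := Module.finBasis ℤ L
  obtain ⟨G, hG⟩ : ∃ G : Matrix (Fin (finrank ℤ L)) (Fin (finrank ℤ L)) ℤ,
    G = Matrix.of fun i j => B (c i) (c j) := ⟨_, rfl⟩
  -- coordinates
  have hB : ∀ u v : Fin (finrank ℤ L) → ℤ,
      B (c.equivFun.symm u) (c.equivFun.symm v) = u ⬝ᵥ (G *ᵥ v) := by
    intro u v
    simp only [Basis.equivFun_symm_apply, map_sum, LinearMap.sum_apply, map_smul,
      LinearMap.smul_apply, smul_eq_mul, dotProduct, mulVec, hG, Matrix.of_apply]
    simp only [Finset.mul_sum]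
    rw [Finset.sum_comm]
    refine Finset.sum_congr rfl fun i _ => Finset.sum_congr rfl fun j _ => ?_
    ring
  have hsym : Gᵀ = G := by
    ext i j
    rw [transpose_apply, hG, Matrix.of_apply, Matrix.of_apply, hs]
  have hunit : IsUnit G.det := by
    -- `G` is the matrix of `B : L → Dual L` in the bases `c`, `c.dualBasis`
    let e : L ≃ₗ[ℤ] Module.Dual ℤ L := LinearEquiv.ofBijective B hu
    have h1 := LinearEquiv.isUnit_det e c c.dualBasis
    have h2 : LinearMap.toMatrix c c.dualBasis (e : L →ₗ[ℤ] Module.Dual ℤ L) = G := by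
      ext i j
      rw [LinearMap.toMatrix_apply, Basis.dualBasis_repr, hG, Matrix.of_apply, hs]
      rfl
    rw [h2] at h1
    exact h1
  obtain ⟨U, hU, hUG⟩ := elkies_matrix G hsym hunit
    (fun v hv => by
      rw [← hB]
      exact hp _ fun h => hv ((LinearEquiv.map_eq_zero_iff c.equivFun.symm).1 h))
    (fun w hw => by
      rw [← hB, Fintype.card_fin]
      refine hlong _ fun x => ?_
      have := hw (c.equivFun x)
      rw [← hB, ← hB, LinearEquiv.symm_apply_apply] at this
      exact this)
  have hUi : IsUnit U := (Matrix.isUnit_iff_isUnit_det U).2 hU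
  let T : (Fin (finrank ℤ L) → ℤ) ≃ₗ[ℤ] (Fin (finrank ℤ L) → ℤ) :=
    Matrix.toLinearEquiv' U (by
      exact (Matrix.isUnit_iff_isUnit_det U).1 hUi |> fun h => by
        exact Matrix.invertibleOfIsUnitDet U h)
  refine ⟨c.map (c.equivFun ≪≫ₗ T ≪≫ₗ c.equivFun.symm), fun i j => ?_⟩
  have hTi : ∀ i, (c.equivFun ≪≫ₗ T ≪≫ₗ c.equivFun.symm) (c i) =
      c.equivFun.symm (U *ᵥ Pi.single i 1) := by
    intro i
    simp only [LinearEquiv.trans_apply]
    congr 1
    change U.toLin' _ = _
    rw [Matrix.toLin'_apply]
    congr 1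
    ext k
    simp [Pi.single_apply, eq_comm]
  rw [Basis.map_apply, Basis.map_apply, hTi, hTi, hB]
  have h3 := congrFun (congrFun hUG i) j
  rw [Matrix.one_apply] at h3
  rw [← h3]
  simp only [mulVec_single_one]
  rw [Matrix.mul_assoc]
  rfl

/-- Negative definite version of Elkies' theorem. -/
theorem elkies_neg (B : LinearMap.BilinForm ℤ L) (hs : ∀ x y, B x y = B y x)
    (hu : Function.Bijective (B : L → Module.Dual ℤ L))
    (hp : ∀ x, x ≠ 0 → B x x < 0)
    (hlong : ∀ w : L, (∀ x, (2 : ℤ) ∣ B x w - B x x) → B w w ≤ -(Module.finrank ℤ L : ℤ)) :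
    ∃ b : Basis (Fin (Module.finrank ℤ L)) ℤ L, ∀ i j, B (b i) (b j) = if i = j then -1 else 0 := by
  obtain ⟨b, hb⟩ := elkies (-B) (fun x y => by simp [hs x y])
    (by
      have h : (⇑(-B) : L → Module.Dual ℤ L) = (fun f => -f) ∘ B := by
        funext x
        simp
      rw [h]
      exact (Equiv.neg (Module.Dual ℤ L)).bijective.comp hu)
    (fun x hx => by
      have := hp x hx
      simp only [LinearMap.neg_apply]
      omega)
    (fun w hw => by
      have := hlong w fun x => by
        have h := hw x
        simp only [LinearMap.neg_apply] at h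
        have h2 : B x w - B x x = -(-(B x) w - -(B x) x) := by ring
        rw [h2]
        exact (dvd_neg).2 h
      simp only [LinearMap.neg_apply]
      omega)
  refine ⟨b, fun i j => ?_⟩
  have := hb i j
  simp only [LinearMap.neg_apply] at this
  split_ifs at this ⊢ <;> omega

/-- Negative definite version with a canonical class `K`: if `K` is characteristic, `K·K = -n`
and every characteristic `w` has `w·w ≤ -n`, then there is a basis `e` with
`e i · e j = -δ` and `K · e i = -1`, so that `K = ∑ e i`. -/
theorem elkies_canonical (B : LinearMap.BilinForm ℤ L) (hs : ∀ x y, B x y = B y x)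
    (hu : Function.Bijective (B : L → Module.Dual ℤ L))
    (hp : ∀ x, x ≠ 0 → B x x < 0)
    (hlong : ∀ w : L, (∀ x, (2 : ℤ) ∣ B x w - B x x) → B w w ≤ -(Module.finrank ℤ L : ℤ))
    (K : L) (hK : ∀ x, (2 : ℤ) ∣ B x K - B x x) (hKK : B K K = -(Module.finrank ℤ L : ℤ)) :
    ∃ b : Basis (Fin (Module.finrank ℤ L)) ℤ L,
      (∀ i j, B (b i) (b j) = if i = j then -1 else 0) ∧ (∀ i, B K (b i) = -1) ∧
      K = ∑ i, b i := by
  classical
  obtain ⟨b, hb⟩ := elkies_neg B hs hu hp hlong
  -- coordinates of `K`
  have hrepr : ∀ x y : L, B x y = -∑ i, b.repr x i * b.repr y i := by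
    intro x y
    conv_lhs => rw [← b.sum_repr x, ← b.sum_repr y]
    simp only [map_sum, LinearMap.sum_apply, map_smul, LinearMap.smul_apply, smul_eq_mul, hb]
    rw [← Finset.sum_neg_distrib]
    refine Finset.sum_congr rfl fun i _ => ?_
    rw [Finset.sum_eq_single i]
    · simp; ring
    · intro j _ hj
      simp [hj]
    · simp
  have hodd : ∀ i, b.repr K i ≠ 0 := by
    intro i h0
    have h1 := hK (b i)
    rw [hs (b i) K, hrepr K (b i), hrepr (b i) (b i)] at h1
    have h2 : ∑ j, b.repr K j * b.repr (b i) j = 0 := by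
      rw [Finset.sum_eq_single i]
      · simp [h0]
      · intro j _ hj
        simp [hj.symm]
      · simp
    have h3 : ∑ j, b.repr (b i) j * b.repr (b i) j = 1 := by
      rw [Finset.sum_eq_single i]
      · simp
      · intro j _ hj
        simp [hj.symm]
      · simp
    rw [h2, h3] at h1
    omega
  have hsq : ∀ i, b.repr K i * b.repr K i = 1 := by
    have h1 : ∑ i, b.repr K i * b.repr K i = (Module.finrank ℤ L : ℤ) := by
      have := hrepr K K
      rw [hKK] at this
      linarith
    have h2 : ∀ i, 1 ≤ b.repr K i * b.repr K i := by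
      intro i
      have := hodd i
      have : 0 < b.repr K i * b.repr K i := mul_self_pos.2 this
      omega
    have h3 : ∑ i, (b.repr K i * b.repr K i - 1) = 0 := by
      rw [Finset.sum_sub_distrib, h1]
      simp
    intro i
    have h4 := (Finset.sum_eq_zero_iff_of_nonneg (fun i _ => by have := h2 i; omega)).1 h3 i
      (Finset.mem_univ i)
    omega
  -- change signs
  let u : Fin (Module.finrank ℤ L) → ℤˣ := fun i => ⟨b.repr K i, b.repr K i, hsq i, hsq i⟩
  refine ⟨b.unitsSMul u, fun i j => ?_, fun i => ?_, ?_⟩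
  · simp only [Basis.unitsSMul_apply, map_smul, LinearMap.smul_apply, Units.smul_def, smul_eq_mul,
      hb, u]
    split_ifs with h
    · subst h
      have := hsq i
      linear_combination -this
    · simp
  · simp only [Basis.unitsSMul_apply, Units.smul_def, map_smul, smul_eq_mul, u]
    rw [hrepr K (b i), Finset.sum_eq_single i]
    · have := hsq i
      simp
      linear_combination this
    · intro j _ hj
      simp [hj.symm]
    · simp
  · conv_lhs => rw [← b.sum_repr K]
    refine Finset.sum_congr rfl fun i _ => ?_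
    simp only [Basis.unitsSMul_apply, Units.smul_def, u]

end Vale.Agent.P267.H775
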