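import Mathlib.Analysis.Fourier.AddCircleMulti
import Mathlib.Analysis.SpecialFunctions.Gaussian.FourierTransform
import Mathlib.Analysis.PSeries
import Mathlib.Topology.ContinuousMap.Periodic
import Mathlib.MeasureTheory.Integral.DominatedConvergence

/-!
Poisson summation on `ℤ^ι ⊂ ℝ^ι`.
-/

open MeasureTheory Set Complex TopologicalSpace Filter
open scoped Real Topology

namespace Vale.Agent.P267.H775

noncomputable section

set_option linter.unusedSectionVars false

variable {ι : Type*} [Fintype ι]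

/-- The integer vector `n` as a real vector. -/
def toR (n : ι → ℤ) : ι → ℝ := fun i => (n i : ℝ)

@[simp] lemma toR_apply (n : ι → ℤ) (i : ι) : toR n i = (n i : ℝ) := rfl

lemma toR_add (m n : ι → ℤ) : toR (m + n) = toR m + toR n := by
  ext i; simp

lemma toR_neg (n : ι → ℤ) : toR (-n) = - toR n := by
  ext i; simp

/-- The character `exp (2 π i k·x)`. -/
def chr (k : ι → ℤ) (x : ι → ℝ) : ℂ := cexp (2 * π * I * ∑ i, (k i : ℂ) * (x i : ℂ))

lemma mFourier_coe (k : ι → ℤ) (x : ι → ℝ) :
    UnitAddTorus.mFourier k (fun i => (x i : UnitAddCircle)) = chr k x := by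
  simp only [UnitAddTorus.mFourier, ContinuousMap.coe_mk, fourier_coe_apply, chr]
  rw [← Complex.exp_sum]
  congr 1
  rw [Finset.mul_sum]
  refine Finset.sum_congr rfl fun i _ => ?_
  push_cast
  ring

lemma chr_add_toR (k n : ι → ℤ) (x : ι → ℝ) : chr k (x + toR n) = chr k x := by
  have h : (∑ i, (k i : ℂ) * (((x + toR n) i : ℝ) : ℂ)) =
      (∑ i, (k i : ℂ) * (x i : ℂ)) + ((∑ i, k i * n i : ℤ) : ℂ) := by
    push_cast
    rw [← Finset.sum_add_distrib]
    refine Finset.sum_congr rfl fun i _ => ?_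
    simp [Pi.add_apply, toR]
    ring
  unfold chr
  rw [h, mul_add, Complex.exp_add]
  have h2 : cexp (2 * π * I * ((∑ i, k i * n i : ℤ) : ℂ)) = 1 := by
    rw [Complex.exp_eq_one_iff]
    exact ⟨_, by ring⟩
  rw [h2, mul_one]

lemma norm_chr (k : ι → ℤ) (x : ι → ℝ) : ‖chr k x‖ = 1 := by
  unfold chr
  rw [Complex.norm_exp]
  have : (2 * π * I * ∑ i, (k i : ℂ) * (x i : ℂ)).re = 0 := by
    have h : (∑ i, (k i : ℂ) * (x i : ℂ)) = ((∑ i, (k i : ℝ) * x i : ℝ) : ℂ) := by
      push_cast; rfl
    rw [h]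
    simp
  rw [this, Real.exp_zero]

lemma continuous_chr (k : ι → ℤ) : Continuous (chr k : (ι → ℝ) → ℂ) := by
  unfold chr
  fun_prop

/-- The half-open unit box. -/
def box (n : ι → ℤ) : Set (ι → ℝ) := {x | ∀ i, x i ∈ Ioc (n i : ℝ) ((n i : ℝ) + 1)}

lemma box_eq_pi (n : ι → ℤ) : box n = Set.univ.pi fun i => Ioc (n i : ℝ) ((n i : ℝ) + 1) := by
  ext x; simp [box]

lemma measurableSet_box (n : ι → ℤ) : MeasurableSet (box n) := by
  rw [box_eq_pi]
  exact MeasurableSet.univ_pi fun i => measurableSet_Ioc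

lemma pairwise_disjoint_box : Pairwise (Function.onFun Disjoint (box : (ι → ℤ) → Set (ι → ℝ))) := by
  intro m n hmn
  rw [Function.onFun, Set.disjoint_left]
  intro x hm hn
  apply hmn
  funext i
  have h1 := hm i
  have h2 := hn i
  have a : (m i : ℝ) < (n i : ℝ) + 1 := lt_of_lt_of_le h1.1 h2.2
  have b : (n i : ℝ) < (m i : ℝ) + 1 := lt_of_lt_of_le h2.1 h1.2
  have a' : m i < n i + 1 := by exact_mod_cast a
  have b' : n i < m i + 1 := by exact_mod_cast b
  omega

lemma iUnion_box : (⋃ n : ι → ℤ, box n) = (Set.univ : Set (ι → ℝ)) := by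
  refine Set.eq_univ_of_forall fun x => Set.mem_iUnion.2 ⟨fun i => ⌈x i⌉ - 1, fun i => ?_⟩
  constructor
  · push_cast
    linarith [Int.ceil_lt_add_one (x i)]
  · push_cast
    linarith [Int.le_ceil (x i)]

lemma integral_box (g : (ι → ℝ) → ℂ) (n : ι → ℤ) :
    ∫ x in box n, g x = ∫ x in box (0 : ι → ℤ), g (x + toR n) := by
  have h : (fun x : ι → ℝ => x + toR n) ⁻¹' (box n) = box (0 : ι → ℤ) := by
    ext x
    simp only [Set.mem_preimage, box, Set.mem_ofPred_eq, Pi.add_apply, toR_apply, Set.mem_Ioc,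
      Pi.zero_apply, Int.cast_zero, zero_add]
    refine forall_congr' fun i => ⟨fun h => ⟨by linarith [h.1], by linarith [h.2]⟩,
      fun h => ⟨by linarith [h.1], by linarith [h.2]⟩⟩
  have hmp : MeasurePreserving (fun x : ι → ℝ => x + toR n) volume volume :=
    measurePreserving_add_right volume (toR n)
  have he : MeasurableEmbedding (fun x : ι → ℝ => x + toR n) :=
    (MeasurableEquiv.addRight (toR n)).measurableEmbedding
  rw [← hmp.setIntegral_preimage_emb he g (box n), h]

/-- The unit cube as a compact set. -/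
def cube (ι : Type*) [Fintype ι] : Compacts (ι → ℝ) :=
  ⟨Set.Icc (0 : ι → ℝ) 1, isCompact_Icc⟩

lemma box_subset_cube : box (0 : ι → ℤ) ⊆ (cube ι : Set (ι → ℝ)) := by
  intro x hx
  refine ⟨fun i => ?_, fun i => ?_⟩
  · have := (hx i).1
    simp at this
    exact this.le
  · have := (hx i).2
    simpa using this

lemma volume_box_lt_top (n : ι → ℤ) : volume (box n) < ⊤ := by
  rw [box_eq_pi, Real.volume_pi_Ioc]
  exact ENNReal.prod_lt_top fun i _ => ENNReal.ofReal_lt_top

/-- Translate of a continuous function. -/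
def trans (f : C(ι → ℝ, ℂ)) (n : ι → ℤ) : C(ι → ℝ, ℂ) := f.comp (ContinuousMap.addRight (toR n))

@[simp] lemma trans_apply (f : C(ι → ℝ, ℂ)) (n : ι → ℤ) (x : ι → ℝ) :
    trans f n x = f (x + toR n) := rfl

/-- Local uniform summability of the translates. -/
def LocSum (f : C(ι → ℝ, ℂ)) : Prop :=
  ∀ K : Compacts (ι → ℝ), Summable fun n : ι → ℤ => ‖(trans f n).restrict K‖

lemma norm_le_restrict (f : C(ι → ℝ, ℂ)) (K : Compacts (ι → ℝ)) {x : ι → ℝ} (hx : x ∈ K) :
    ‖f x‖ ≤ ‖f.restrict K‖ := by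
  have h := (ContinuousMap.restrict (K : Set (ι → ℝ)) f).norm_coe_le_norm ⟨x, hx⟩
  exact h

lemma LocSum.summable {f : C(ι → ℝ, ℂ)} (hf : LocSum f) (x : ι → ℝ) :
    Summable fun n : ι → ℤ => f (x + toR n) := by
  have h := hf ⟨{x}, isCompact_singleton⟩
  refine Summable.of_norm_bounded h fun n => ?_
  exact norm_le_restrict (trans f n) ⟨{x}, isCompact_singleton⟩ (Set.mem_singleton x)

/-- The periodization. -/
def per (f : C(ι → ℝ, ℂ)) : C(ι → ℝ, ℂ) := ∑' n : ι → ℤ, trans f n

lemma LocSum.per_apply {f : C(ι → ℝ, ℂ)} (hf : LocSum f) (x : ι → ℝ) :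
    per f x = ∑' n : ι → ℤ, f (x + toR n) := by
  have h := ContinuousMap.summable_of_locally_summable_norm hf
  exact (ContinuousMap.hasSum_apply h.hasSum x).tsum_eq.symm

lemma LocSum.per_add {f : C(ι → ℝ, ℂ)} (hf : LocSum f) (x : ι → ℝ) (m : ι → ℤ) :
    per f (x + toR m) = per f x := by
  rw [hf.per_apply, hf.per_apply]
  rw [← (Equiv.addLeft m).tsum_eq (fun n : ι → ℤ => f (x + toR n))]
  refine tsum_congr fun n => ?_
  simp only [Equiv.coe_addLeft, toR_add]
  rw [add_assoc]

/-- the covering map of the torus -/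
def cov (x : ι → ℝ) : UnitAddTorus ι := fun i => (x i : UnitAddCircle)

lemma isOpenQuotientMap_cov : IsOpenQuotientMap (cov : (ι → ℝ) → UnitAddTorus ι) :=
  IsOpenQuotientMap.piMap (fun _ : ι => QuotientAddGroup.isOpenQuotientMap_mk)

lemma cov_eq_iff (x y : ι → ℝ) : cov x = cov y ↔ ∃ n : ι → ℤ, y = x + toR n := by
  constructor
  · intro h
    have h' : ∀ i, ∃ n : ℤ, y i = x i + n := by
      intro i
      have h1 : ((y i - x i : ℝ) : UnitAddCircle) = 0 := by
        rw [AddCircle.coe_sub, sub_eq_zero]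
        exact (congrFun h i).symm
      obtain ⟨n, hn⟩ := (AddCircle.coe_eq_zero_iff (1 : ℝ)).1 h1
      refine ⟨n, ?_⟩
      have : (n : ℝ) = y i - x i := by simpa using hn
      linarith
    choose n hn using h'
    exact ⟨n, funext fun i => by simpa using hn i⟩
  · rintro ⟨n, rfl⟩
    funext i
    simp only [cov, Pi.add_apply, toR_apply, AddCircle.coe_add]
    have : ((n i : ℝ) : UnitAddCircle) = 0 := by
      rw [AddCircle.coe_eq_zero_iff]
      exact ⟨n i, by simp⟩
    rw [this, add_zero]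

/-- The periodization as a function on the torus. -/
def perT (f : C(ι → ℝ, ℂ)) (hf : LocSum f) : C(UnitAddTorus ι, ℂ) where
  toFun t := per f (Function.surjInv isOpenQuotientMap_cov.surjective t)
  continuous_toFun := by
    rw [isOpenQuotientMap_cov.isQuotientMap.continuous_iff]
    have : (fun t => per f (Function.surjInv isOpenQuotientMap_cov.surjective t)) ∘ cov =
        (per f : (ι → ℝ) → ℂ) := by
      funext x
      have h := Function.surjInv_eq isOpenQuotientMap_cov.surjective (cov x)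
      obtain ⟨n, hn⟩ := (cov_eq_iff _ _).1 h
      simp only [Function.comp]
      conv_rhs => rw [hn]
      rw [hf.per_add]
    rw [this]
    exact (per f).continuous

lemma perT_cov (f : C(ι → ℝ, ℂ)) (hf : LocSum f) (x : ι → ℝ) : perT f hf (cov x) = per f x := by
  have h := Function.surjInv_eq isOpenQuotientMap_cov.surjective (cov x)
  obtain ⟨n, hn⟩ := (cov_eq_iff _ _).1 h
  change per f (Function.surjInv isOpenQuotientMap_cov.surjective (cov x)) = per f x
  conv_rhs => rw [hn]
  rw [hf.per_add]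

/-- Fourier transform at an integer frequency. -/
def fc (f : (ι → ℝ) → ℂ) (k : ι → ℤ) : ℂ := ∫ x : ι → ℝ, chr (-k) x * f x

lemma coeff_perT (f : C(ι → ℝ, ℂ)) (hf : LocSum f) (hint : Integrable f) (k : ι → ℤ) :
    UnitAddTorus.mFourierCoeff (perT f hf) k = fc f k := by
  rw [UnitAddTorus.mFourierCoeff_eq_integral _ _ (0 : ι → ℝ)]
  have hbox : {x : ι → ℝ | ∀ i, x i ∈ Ioc ((0 : ι → ℝ) i) ((0 : ι → ℝ) i + 1)} =
      box (0 : ι → ℤ) := by
    ext x; simp [box]
  rw [hbox]
  have h1 : ∀ x : ι → ℝ, UnitAddTorus.mFourier (-k) (fun i => (x i : UnitAddCircle)) •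
      perT f hf (fun i => (x i : UnitAddCircle)) = ∑' n : ι → ℤ, chr (-k) x * f (x + toR n) := by
    intro x
    rw [mFourier_coe]
    have := perT_cov f hf x
    unfold cov at this
    rw [this, hf.per_apply, smul_eq_mul, tsum_mul_left]
  simp_rw [h1]
  have hintg : Integrable (fun x => chr (-k) x * f x) := by
    refine hint.bdd_mul (c := 1) (continuous_chr _).aestronglyMeasurable ?_
    exact Filter.Eventually.of_forall fun x => (norm_chr _ _).le
  rw [← integral_tsum_of_summable_integral_norm]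
  · unfold fc
    rw [← setIntegral_univ, ← iUnion_box,
      integral_iUnion measurableSet_box pairwise_disjoint_box hintg.integrableOn]
    refine tsum_congr fun n => ?_
    rw [integral_box (fun x => chr (-k) x * f x) n]
    simp only [chr_add_toR]
  · intro n
    refine Integrable.integrableOn ?_
    have : (fun x => chr (-k) x * f (x + toR n)) = fun x => (fun y => chr (-k) y * f y) (x + toR n) := by
      funext x
      simp only [chr_add_toR]
    rw [this]
    exact Integrable.comp_add_right hintg (toR n)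
  · have hs := (hf (cube ι)).mul_right (volume.real (box (0 : ι → ℤ)))
    refine Summable.of_nonneg_of_le (fun n => integral_nonneg fun x => norm_nonneg _)
      (fun n => ?_) hs
    have hle : ∀ x ∈ box (0 : ι → ℤ), ‖chr (-k) x * f (x + toR n)‖ ≤
        ‖(trans f n).restrict (cube ι)‖ := by
      intro x hx
      rw [norm_mul, norm_chr, one_mul]
      exact norm_le_restrict (trans f n) (cube ι) (box_subset_cube hx)
    have h3 : ‖∫ x in box (0 : ι → ℤ), (‖chr (-k) x * f (x + toR n)‖ : ℝ)‖ ≤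
        ‖(trans f n).restrict (cube ι)‖ * volume.real (box (0 : ι → ℤ)) := by
      refine norm_setIntegral_le_of_norm_le_const (E := ℝ) (volume_box_lt_top (0 : ι → ℤ)) ?_
      intro x hx
      rw [norm_norm]
      exact hle x hx
    exact (le_abs_self _).trans h3

/-- **Poisson summation** on `ℤ^ι`. -/
theorem poisson (f : C(ι → ℝ, ℂ)) (hf : LocSum f) (hint : Integrable f)
    (hs : Summable (fc (f : (ι → ℝ) → ℂ))) (x : ι → ℝ) :
    HasSum (fun k : ι → ℤ => fc f k * chr k x) (∑' n : ι → ℤ, f (x + toR n)) := by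
  have h : Summable (UnitAddTorus.mFourierCoeff (perT f hf)) := by
    convert hs using 1
    funext k
    exact coeff_perT f hf hint k
  have h2 := UnitAddTorus.hasSum_mFourier_series_apply_of_summable h (cov x)
  rw [perT_cov, hf.per_apply] at h2
  convert h2 using 1
  funext k
  rw [coeff_perT f hf hint k, smul_eq_mul]
  congr 1
  exact (mFourier_coe k x).symm

end

end Vale.Agent.P267.H775
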