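import Vale.Agent.P267.H775.Gauss
import Mathlib.Analysis.Matrix.Order

/-!
Theta series of positive definite unimodular integral quadratic forms.
-/

open MeasureTheory Set Complex TopologicalSpace Filter Matrix
open scoped Real Topology

namespace Vale.Agent.P267.H775

noncomputable section

set_option linter.unusedSectionVars false

variable {ι : Type*} [Fintype ι] [DecidableEq ι]

/-- The integral quadratic form `v ↦ vᵀ G v`. -/
def qz (G : Matrix ι ι ℤ) (v : ι → ℤ) : ℤ := v ⬝ᵥ (G *ᵥ v)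

/-- Positive definite on integer vectors. -/
def ZPos (G : Matrix ι ι ℤ) : Prop := ∀ v : ι → ℤ, v ≠ 0 → 0 < qz G v

/-- The real matrix. -/
def rl (G : Matrix ι ι ℤ) : Matrix ι ι ℝ := G.map (fun a : ℤ => (a : ℝ))

lemma rl_mulVec (G : Matrix ι ι ℤ) (v : ι → ℤ) : rl G *ᵥ toR v = toR (G *ᵥ v) := by
  ext i
  simp [rl, mulVec, dotProduct, toR]

lemma toR_dotProduct (u v : ι → ℤ) : toR u ⬝ᵥ toR v = ((u ⬝ᵥ v : ℤ) : ℝ) := by
  simp [dotProduct, toR]

lemma qz_real (G : Matrix ι ι ℤ) (v : ι → ℤ) :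
    toR v ⬝ᵥ (rl G *ᵥ toR v) = ((qz G v : ℤ) : ℝ) := by
  rw [rl_mulVec, toR_dotProduct]
  rfl

lemma real_nonneg (G : Matrix ι ι ℤ) (h : ZPos G) (x : ι → ℝ) :
    0 ≤ x ⬝ᵥ (rl G *ᵥ x) := by
  -- approximate by `⌊N x⌋ / N`
  have hf : Continuous (fun y : ι → ℝ => y ⬝ᵥ (rl G *ᵥ y)) := by fun_prop
  let y : ℕ → ι → ℝ := fun N i => (⌊(N : ℝ) * x i⌋ : ℝ) / N
  have hy : Tendsto y atTop (𝓝 x) := by
    rw [tendsto_pi_nhds]
    intro i
    have h1 : Tendsto (fun N : ℕ => x i - 1 / (N : ℝ)) atTop (𝓝 (x i)) := by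
      have := (tendsto_const_nhds (x := x i)).sub (tendsto_one_div_atTop_nhds_zero_nat (𝕜 := ℝ))
      simpa using this
    refine tendsto_of_tendsto_of_tendsto_of_le_of_le' h1 tendsto_const_nhds ?_ ?_
    · filter_upwards [eventually_gt_atTop 0] with N hN
      have hN' : (0 : ℝ) < N := by exact_mod_cast hN
      simp only [y]
      rw [le_div_iff₀ hN', sub_mul, one_div, inv_mul_cancel₀ hN'.ne']
      have := Int.lt_floor_add_one ((N : ℝ) * x i)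
      linarith [mul_comm (x i) (N : ℝ)]
    · filter_upwards [eventually_gt_atTop 0] with N hN
      have hN' : (0 : ℝ) < N := by exact_mod_cast hN
      simp only [y]
      rw [div_le_iff₀ hN']
      have := Int.floor_le ((N : ℝ) * x i)
      linarith [mul_comm (x i) (N : ℝ)]
  have hlim : Tendsto (fun N => y N ⬝ᵥ (rl G *ᵥ y N)) atTop (𝓝 (x ⬝ᵥ (rl G *ᵥ x))) :=
    (hf.tendsto x).comp hy
  refine ge_of_tendsto' hlim fun N => ?_
  have e : y N = ((N : ℝ)⁻¹) • toR (fun i => ⌊(N : ℝ) * x i⌋) := by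
    ext i
    simp [y, toR, div_eq_inv_mul]
  rw [e, mulVec_smul, dotProduct_smul, smul_dotProduct, qz_real, smul_smul, smul_eq_mul]
  refine mul_nonneg (mul_self_nonneg _) ?_
  by_cases h0 : (fun i => ⌊(N : ℝ) * x i⌋) = 0
  · rw [h0]
    simp [qz]
  · exact_mod_cast (h _ h0).le

lemma exists_sqrt (G : Matrix ι ι ℤ) (hs : Gᵀ = G) (hp : ZPos G) (hd : G.det = 1) :
    ∃ M : Matrix ι ι ℝ, Mᵀ * M = rl G ∧ |M.det| = 1 := by
  have hps : (rl G).PosSemidef := by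
    refine Matrix.PosSemidef.of_dotProduct_mulVec_nonneg ?_ fun x => ?_
    · ext i j
      have := congrFun (congrFun hs i) j
      simp only [transpose_apply] at this
      simp [rl, this]
    · simpa using real_nonneg G hp x
  have hex : ∃ M : Matrix ι ι ℝ, rl G = Mᴴ * M := by
    open scoped MatrixOrder Matrix.Norms.L2Operator in
    exact CStarAlgebra.nonneg_iff_eq_star_mul_self.mp hps.nonneg
  obtain ⟨M, hM⟩ := hex
  rw [conjTranspose_eq_transpose_of_trivial] at hM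
  refine ⟨M, hM.symm, ?_⟩
  have h1 : (rl G).det = 1 := by
    have : (rl G) = (Int.castRingHom ℝ).mapMatrix G := rfl
    rw [this, ← RingHom.map_det, hd]
    simp
  rw [hM, det_mul, det_transpose] at h1
  have h2 : |M.det| * |M.det| = 1 := by rw [← abs_mul, h1, abs_one]
  nlinarith [abs_nonneg M.det]

lemma qf_eq (M : Matrix ι ι ℝ) (x : ι → ℝ) : qf M x = x ⬝ᵥ ((Mᵀ * M) *ᵥ x) := by
  rw [← mulVec_mulVec, mulVec_transpose, dotProduct_comm, ← dotProduct_mulVec]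
  simp [qf, dotProduct, sq]

lemma qf_toR {G : Matrix ι ι ℤ} {M : Matrix ι ι ℝ} (hM : Mᵀ * M = rl G) (v : ι → ℤ) :
    qf M (toR v) = (qz G v : ℤ) := by
  rw [qf_eq, hM, qz_real]

lemma qf_dual {G : Matrix ι ι ℤ} {M : Matrix ι ι ℝ} (hM : Mᵀ * M = rl G) (hd : |M.det| = 1)
    (u : ι → ℤ) : qf (M⁻¹)ᵀ (toR (G *ᵥ u)) = (qz G u : ℤ) := by
  have hdet : M.det ≠ 0 := by
    intro h; rw [h] at hd; simp at hd
  have hu : IsUnit M.det := isUnit_iff_ne_zero.2 hdet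
  rw [← rl_mulVec, ← hM, ← qf_toR hM]
  unfold qf
  have : (M⁻¹)ᵀ *ᵥ ((Mᵀ * M) *ᵥ toR u) = M *ᵥ toR u := by
    rw [mulVec_mulVec, ← Matrix.mul_assoc, ← transpose_mul, mul_nonsing_inv _ hu, transpose_one,
      Matrix.one_mul]
  rw [this]

/-- The theta function with characteristic `x`. -/
def Th (M : Matrix ι ι ℝ) (τ : ℂ) (x : ι → ℝ) : ℂ := ∑' n : ι → ℤ, gau M τ (x + toR n)

/-- Multiplication by `G` as an equivalence of `ℤ^ι`. -/
def mulEquiv (G : Matrix ι ι ℤ) (hd : G.det = 1) : (ι → ℤ) ≃ (ι → ℤ) where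
  toFun u := G *ᵥ u
  invFun u := G⁻¹ *ᵥ u
  left_inv u := by
    simp only
    rw [mulVec_mulVec, nonsing_inv_mul _ (by rw [hd]; exact isUnit_one), one_mulVec]
  right_inv u := by
    simp only
    rw [mulVec_mulVec, mul_nonsing_inv _ (by rw [hd]; exact isUnit_one), one_mulVec]

/-- The transformation formula of the theta function. -/
theorem Th_S {G : Matrix ι ι ℤ} (hGd : G.det = 1) {M : Matrix ι ι ℝ} (hM : Mᵀ * M = rl G)
    (hd : |M.det| = 1) {τ : ℂ} (hτ : 0 < τ.im) (x : ι → ℝ) :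
    Th M τ x = (I / τ) ^ (Fintype.card ι / 2 : ℂ) *
      ∑' u : ι → ℤ, cexp (π * I * (-1 / τ) * (qz G u : ℤ)) * chr (G *ᵥ u) x := by
  have hdet : M.det ≠ 0 := by
    intro h; rw [h] at hd; simp at hd
  have hτ0 : τ ≠ 0 := by rintro rfl; simp at hτ
  have him : 0 < (-1 / τ : ℂ).im := by
    rw [neg_div, one_div, neg_im, inv_im, neg_div, neg_neg]
    exact div_pos hτ (normSq_pos.2 hτ0)
  have hfc : ∀ k : ι → ℤ, fc (gau M τ) k = (I / τ) ^ (Fintype.card ι / 2 : ℂ) *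
      gau (M⁻¹)ᵀ (-1 / τ) (toR k) := by
    intro k
    rw [fc_gau M hdet hτ, hd, inv_one, gau_apply]
    push_cast
    rw [one_mul]
  have hdet' : ((M⁻¹)ᵀ).det ≠ 0 := by
    rw [det_transpose, det_nonsing_inv, Ring.inverse_eq_inv']
    exact inv_ne_zero hdet
  have hsum : Summable (fc (gau M τ : (ι → ℝ) → ℂ)) := by
    have h1 := (locSum_gau (M⁻¹)ᵀ hdet' him).summable 0
    simp only [zero_add] at h1
    have h2 := h1.mul_left ((I / τ) ^ (Fintype.card ι / 2 : ℂ))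
    refine h2.congr fun k => ?_
    rw [hfc]
  have hp := (poisson (gau M τ) (locSum_gau M hdet hτ) (integrable_gau M hdet hτ) hsum x).tsum_eq
  unfold Th
  rw [← hp, ← (mulEquiv G hGd).tsum_eq, ← tsum_mul_left]
  refine tsum_congr fun u => ?_
  rw [hfc, gau_apply]
  change (I / τ) ^ (Fintype.card ι / 2 : ℂ) *
      cexp (π * I * (-1 / τ) * (qf (M⁻¹)ᵀ (toR (G *ᵥ u)) : ℝ)) * chr (G *ᵥ u) x = _
  rw [qf_dual hM hd u]
  push_cast
  ring

/-- `w` is characteristic. -/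
def IsChar (G : Matrix ι ι ℤ) (w : ι → ℤ) : Prop :=
  ∀ v : ι → ℤ, (2 : ℤ) ∣ v ⬝ᵥ (G *ᵥ w) - qz G v

lemma Th_zero_S {G : Matrix ι ι ℤ} (hGd : G.det = 1) {M : Matrix ι ι ℝ} (hM : Mᵀ * M = rl G)
    (hd : |M.det| = 1) {τ : ℂ} (hτ : 0 < τ.im) :
    Th M τ 0 = (I / τ) ^ (Fintype.card ι / 2 : ℂ) * Th M (-1 / τ) 0 := by
  rw [Th_S hGd hM hd hτ]
  congr 1
  unfold Th
  refine tsum_congr fun u => ?_
  rw [gau_apply, zero_add, qf_toR hM]
  have : chr (G *ᵥ u) (0 : ι → ℝ) = 1 := by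
    unfold chr
    simp
  rw [this, mul_one]
  push_cast
  rfl

lemma Th_half_S {G : Matrix ι ι ℤ} (hs : Gᵀ = G) (hGd : G.det = 1) {M : Matrix ι ι ℝ}
    (hM : Mᵀ * M = rl G) (hd : |M.det| = 1) {w : ι → ℤ} (hw : IsChar G w)
    {τ : ℂ} (hτ : 0 < τ.im) :
    Th M τ ((1 / 2 : ℝ) • toR w) = (I / τ) ^ (Fintype.card ι / 2 : ℂ) * Th M (-1 / τ + 1) 0 := by
  rw [Th_S hGd hM hd hτ]
  congr 1
  unfold Th
  refine tsum_congr fun u => ?_
  rw [gau_apply, zero_add, qf_toR hM]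
  obtain ⟨m, hm⟩ := hw u
  have h1 : (G *ᵥ u) ⬝ᵥ w = qz G u + 2 * m := by
    have : (G *ᵥ u) ⬝ᵥ w = u ⬝ᵥ (G *ᵥ w) := by
      rw [dotProduct_mulVec, ← mulVec_transpose, hs]
    rw [this]; linarith
  have h2 : chr (G *ᵥ u) ((1 / 2 : ℝ) • toR w) = cexp (π * I * (qz G u : ℤ)) := by
    unfold chr
    have : (∑ i, (((G *ᵥ u) i : ℤ) : ℂ) * ((((1 / 2 : ℝ) • toR w) i : ℝ) : ℂ)) =
        (1 / 2 : ℂ) * (((G *ᵥ u) ⬝ᵥ w : ℤ) : ℂ) := by
      simp only [dotProduct, Pi.smul_apply, smul_eq_mul, toR_apply]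
      push_cast
      rw [Finset.mul_sum]
      refine Finset.sum_congr rfl fun i _ => ?_
      ring
    rw [this, h1]
    push_cast
    rw [show (2 * π * I * (1 / 2 * ((qz G u : ℂ) + 2 * (m : ℂ))) : ℂ) =
      π * I * (qz G u : ℂ) + (m : ℂ) * (2 * π * I) by ring, Complex.exp_add]
    rw [Complex.exp_int_mul_two_pi_mul_I, mul_one]
  rw [h2, ← Complex.exp_add]
  congr 1
  push_cast
  ring

lemma Th_zero_add_two {G : Matrix ι ι ℤ} {M : Matrix ι ι ℝ} (hM : Mᵀ * M = rl G) (τ : ℂ) :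
    Th M (τ + 2) 0 = Th M τ 0 := by
  unfold Th
  refine tsum_congr fun u => ?_
  rw [gau_apply, gau_apply, zero_add, qf_toR hM]
  rw [show (π * I * (τ + 2) * (((qz G u : ℤ) : ℝ) : ℂ) : ℂ) =
    π * I * τ * (((qz G u : ℤ) : ℝ) : ℂ) + ((qz G u : ℤ) : ℂ) * (2 * π * I) by push_cast; ring,
    Complex.exp_add, Complex.exp_int_mul_two_pi_mul_I, mul_one]

lemma four_qf_half {G : Matrix ι ι ℤ} {M : Matrix ι ι ℝ} (hM : Mᵀ * M = rl G) (w n : ι → ℤ) :
    qf M ((1 / 2 : ℝ) • toR w + toR n) = (1 / 4 : ℝ) * (qz G (w + 2 • n) : ℤ) := by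
  rw [← qf_toR hM]
  have : (1 / 2 : ℝ) • toR w + toR n = (1 / 2 : ℝ) • toR (w + 2 • n) := by
    ext i
    simp [toR]
    ring
  rw [this]
  unfold qf
  rw [mulVec_smul, Finset.mul_sum]
  refine Finset.sum_congr rfl fun i _ => ?_
  simp only [Pi.smul_apply, smul_eq_mul]
  ring

lemma isChar_add {G : Matrix ι ι ℤ} {w : ι → ℤ} (hw : IsChar G w) (n : ι → ℤ) :
    IsChar G (w + 2 • n) := by
  intro v
  obtain ⟨m, hm⟩ := hw v
  refine ⟨m + v ⬝ᵥ (G *ᵥ n), ?_⟩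
  rw [mulVec_add, dotProduct_add, mulVec_smul, dotProduct_smul]
  rw [two_nsmul]
  linarith

lemma qz_add_two {G : Matrix ι ι ℤ} (hs : Gᵀ = G) {w : ι → ℤ} (hw : IsChar G w) (n : ι → ℤ) :
    (8 : ℤ) ∣ qz G (w + 2 • n) - qz G w := by
  obtain ⟨m, hm⟩ := hw n
  refine ⟨qz G n + m, ?_⟩
  have hsym : w ⬝ᵥ (G *ᵥ n) = n ⬝ᵥ (G *ᵥ w) := by
    rw [dotProduct_mulVec, ← mulVec_transpose, hs, dotProduct_comm]
  have : qz G (w + 2 • n) = qz G w + 4 * n ⬝ᵥ (G *ᵥ w) + 4 * qz G n := by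
    unfold qz
    rw [mulVec_add, dotProduct_add, add_dotProduct, add_dotProduct, mulVec_smul, dotProduct_smul,
      dotProduct_smul, smul_dotProduct, smul_dotProduct, hsym]
    simp only [nsmul_eq_mul]
    push_cast
    ring
  rw [this]
  linarith

lemma Th_half_add_one {G : Matrix ι ι ℤ} (hs : Gᵀ = G) {M : Matrix ι ι ℝ}
    (hM : Mᵀ * M = rl G) {w : ι → ℤ} (hw : IsChar G w) (τ : ℂ) :
    Th M (τ + 1) ((1 / 2 : ℝ) • toR w) =
      cexp (π * I * (qz G w : ℤ) / 4) * Th M τ ((1 / 2 : ℝ) • toR w) := by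
  unfold Th
  rw [← tsum_mul_left]
  refine tsum_congr fun n => ?_
  rw [gau_apply, gau_apply, four_qf_half hM]
  obtain ⟨m, hm⟩ := qz_add_two hs hw n
  rw [← Complex.exp_add]
  have h1 : ((qz G (w + 2 • n) : ℤ) : ℂ) = ((qz G w : ℤ) : ℂ) + 8 * (m : ℂ) := by
    have : qz G (w + 2 • n) = qz G w + 8 * m := by linarith
    rw [this]; push_cast; ring
  have h2 : (((1 / 4 : ℝ) * ((qz G (w + 2 • n) : ℤ) : ℝ) : ℝ) : ℂ) =
      (1 / 4 : ℂ) * ((qz G (w + 2 • n) : ℤ) : ℂ) := by push_cast; ring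
  rw [h2]
  rw [show (π * I * (τ + 1) * ((1 / 4 : ℂ) * ((qz G (w + 2 • n) : ℤ) : ℂ)) : ℂ) =
    π * I * τ * ((1 / 4 : ℂ) * ((qz G (w + 2 • n) : ℤ) : ℂ)) +
      π * I * (1 / 4 : ℂ) * ((qz G (w + 2 • n) : ℤ) : ℂ) by ring]
  conv_lhs => rw [Complex.exp_add]
  conv_rhs => rw [Complex.exp_add, mul_comm]
  congr 1
  rw [h1, show (π * I * (1 / 4 : ℂ) * (((qz G w : ℤ) : ℂ) + 8 * (m : ℂ)) : ℂ) =
    π * I * ((qz G w : ℤ) : ℂ) / 4 + (m : ℂ) * (2 * π * I) by ring, Complex.exp_add,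
    Complex.exp_int_mul_two_pi_mul_I, mul_one]

lemma exists_char {G : Matrix ι ι ℤ} (hs : Gᵀ = G) (hd : G.det = 1) : ∃ w, IsChar G w := by
  refine ⟨G⁻¹ *ᵥ (fun i => G i i), fun v => ?_⟩
  rw [mulVec_mulVec, mul_nonsing_inv _ (by rw [hd]; exact isUnit_one), one_mulVec]
  have h1 : ∀ (s : Finset ι), (2 : ℤ) ∣ ∑ i ∈ s, v i * G i i -
      ∑ i ∈ s, ∑ j ∈ s, v i * G i j * v j := by
    intro s
    induction s using Finset.induction_on with
    | empty => simp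
    | insert a s ha ih =>
      rw [Finset.sum_insert ha, Finset.sum_insert ha]
      simp only [Finset.sum_insert ha]
      rw [Finset.sum_add_distrib]
      have hsym : ∑ i ∈ s, v i * G i a * v a = ∑ i ∈ s, v a * G a i * v i := by
        refine Finset.sum_congr rfl fun i _ => ?_
        have : G i a = G a i := congrFun (congrFun hs a) i
        rw [this]; ring
      rw [hsym]
      have h2 : (2 : ℤ) ∣ v a * G a a - v a * G a a * v a := by
        rcases Int.even_or_odd (v a) with ⟨k, hk⟩ | ⟨k, hk⟩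
        · rw [hk]; exact ⟨k * G a a - k * G a a * (k + k), by ring⟩
        · rw [hk]; exact ⟨-(2 * k + 1) * G a a * k, by ring⟩
      obtain ⟨p, hp⟩ := ih
      obtain ⟨r, hr⟩ := h2
      refine ⟨p + r - ∑ i ∈ s, v a * G a i * v i, ?_⟩
      linarith
  have h2 := h1 Finset.univ
  have e1 : v ⬝ᵥ (fun i => G i i) = ∑ i, v i * G i i := rfl
  have e2 : qz G v = ∑ i, ∑ j, v i * G i j * v j := by
    simp only [qz, dotProduct, mulVec, Finset.mul_sum]
    refine Finset.sum_congr rfl fun i _ => Finset.sum_congr rfl fun j _ => ?_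
    ring
  rw [e1, e2]
  exact h2

end

end Vale.Agent.P267.H775
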