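import Vale.Agent.P267.H775.Theta
import Mathlib.Analysis.Complex.UpperHalfPlane.FunctionsBoundedAtInfty
import Mathlib.Analysis.Complex.UpperHalfPlane.Manifold
import Mathlib.Analysis.Normed.Group.Tannery

/-!
Holomorphy and growth of theta series.
-/

open MeasureTheory Set Complex TopologicalSpace Filter Matrix
open scoped Real Topology

namespace Vale.Agent.P267.H775

noncomputable section

set_option linter.unusedSectionVars false

variable {ι : Type*} [Fintype ι] [DecidableEq ι]

/-- Real summability. -/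
lemma summable_exp_qf (M : Matrix ι ι ℝ) (hM : M.det ≠ 0) (x : ι → ℝ) {T : ℝ} (hT : 0 < T) :
    Summable fun n : ι → ℤ => Real.exp (-π * T * qf M (x + toR n)) := by
  obtain ⟨u, _, hu, hle⟩ := exists_bound M hM ‖x‖ T hT
  exact Summable.of_nonneg_of_le (fun n => (Real.exp_pos _).le)
    (fun n => hle n x fun i => norm_le_pi_norm x i) hu

lemma Th_differentiableOn (M : Matrix ι ι ℝ) (hM : M.det ≠ 0) (x : ι → ℝ) :
    DifferentiableOn ℂ (fun τ : ℂ => Th M τ x) {τ | 0 < τ.im} := by
  intro τ₀ hτ₀
  have hτ₀' : 0 < τ₀.im := hτ₀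
  set U : Set ℂ := {τ | τ₀.im / 2 < τ.im} with hU
  have hUo : IsOpen U := isOpen_lt continuous_const Complex.continuous_im
  have hmem : τ₀ ∈ U := by
    change τ₀.im / 2 < τ₀.im
    linarith
  have hd : DifferentiableOn ℂ (fun τ : ℂ => ∑' n : ι → ℤ, gau M τ (x + toR n)) U := by
    refine differentiableOn_tsum_of_summable_norm
      (summable_exp_qf M hM x (half_pos hτ₀')) (fun n => ?_) hUo fun n τ hτ => ?_
    · simp only [gau_apply]
      fun_prop
    · rw [norm_gau]
      refine Real.exp_le_exp.2 ?_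
      have h1 := qf_nonneg M (x + toR n)
      have h2 : τ₀.im / 2 < τ.im := hτ
      have h3 : π * (τ₀.im / 2) * qf M (x + toR n) ≤ π * τ.im * qf M (x + toR n) :=
        mul_le_mul_of_nonneg_right (mul_le_mul_of_nonneg_left h2.le Real.pi_pos.le) h1
      linarith
  exact ((hd τ₀ hmem).differentiableAt (hUo.mem_nhds hmem)).differentiableWithinAt

/-- norm bound with a lower bound of the exponents -/
lemma norm_Th_le (M : Matrix ι ι ℝ) (hM : M.det ≠ 0) (x : ι → ℝ) {c : ℝ}
    (hc : ∀ n : ι → ℤ, c ≤ qf M (x + toR n)) : ∃ K : ℝ, 0 ≤ K ∧ ∀ τ : ℂ, 1 ≤ τ.im →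
      ‖Th M τ x‖ ≤ K * Real.exp (-π * τ.im * c) := by
  have hs := summable_exp_qf M hM x one_pos
  refine ⟨Real.exp (π * c) * ∑' n : ι → ℤ, Real.exp (-π * 1 * qf M (x + toR n)),
    mul_nonneg (Real.exp_pos _).le (tsum_nonneg fun n => (Real.exp_pos _).le), fun τ hτ => ?_⟩
  have hle : ∀ n : ι → ℤ, ‖gau M τ (x + toR n)‖ ≤
      (Real.exp (π * c) * Real.exp (-π * τ.im * c)) * Real.exp (-π * 1 * qf M (x + toR n)) := by
    intro n
    rw [norm_gau, ← Real.exp_add, ← Real.exp_add]
    refine Real.exp_le_exp.2 ?_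
    have h1 : 0 ≤ (τ.im - 1) * (qf M (x + toR n) - c) :=
      mul_nonneg (by linarith) (by linarith [hc n])
    have h2 : 0 ≤ π * ((τ.im - 1) * (qf M (x + toR n) - c)) := mul_nonneg Real.pi_pos.le h1
    linarith
  have hs2 := hs.mul_left (Real.exp (π * c) * Real.exp (-π * τ.im * c))
  have h3 := tsum_of_norm_bounded hs2.hasSum hle
  unfold Th
  refine h3.trans (le_of_eq ?_)
  rw [tsum_mul_left]
  ring

lemma zero_or_one_le {G : Matrix ι ι ℤ} (hp : ZPos G) {M : Matrix ι ι ℝ} (hM : Mᵀ * M = rl G)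
    (n : ι → ℤ) (hn : n ≠ 0) : 1 ≤ qf M (toR n) := by
  rw [qf_toR hM]
  exact_mod_cast hp n hn

/-- `Th(τ, 0) - 1` is small near `i∞`. -/
lemma norm_Th_sub_one {G : Matrix ι ι ℤ} (hp : ZPos G) {M : Matrix ι ι ℝ} (hM : Mᵀ * M = rl G)
    (hdet : M.det ≠ 0) : ∃ K : ℝ, 0 ≤ K ∧ ∀ τ : ℂ, 1 ≤ τ.im →
      ‖Th M τ 0 - 1‖ ≤ K * Real.exp (-π * τ.im) := by
  have hs := summable_exp_qf M hdet 0 one_pos
  simp only [zero_add] at hs
  refine ⟨Real.exp π * ∑' n : ι → ℤ, Real.exp (-π * 1 * qf M (toR n)),
    mul_nonneg (Real.exp_pos _).le (tsum_nonneg fun n => (Real.exp_pos _).le), fun τ hτ => ?_⟩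
  have hτ0 : 0 < τ.im := by linarith
  have hsum := (locSum_gau M hdet hτ0).summable 0
  have h0 : gau M τ (0 + toR (0 : ι → ℤ)) = 1 := by
    rw [gau_apply, zero_add, qf_toR hM]
    simp [qz]
  have hsplit : Th M τ 0 - 1 = ∑' n : ι → ℤ, (if n = 0 then 0 else gau M τ (0 + toR n)) := by
    unfold Th
    rw [hsum.tsum_eq_add_tsum_ite 0, h0]
    ring
  have hle : ∀ n : ι → ℤ, ‖(if n = 0 then 0 else gau M τ (0 + toR n))‖ ≤
      (Real.exp π * Real.exp (-π * τ.im)) * Real.exp (-π * 1 * qf M (toR n)) := by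
    intro n
    split_ifs with hn
    · rw [norm_zero]; positivity
    · rw [norm_gau, ← Real.exp_add, ← Real.exp_add, zero_add]
      refine Real.exp_le_exp.2 ?_
      have hq := zero_or_one_le hp hM n hn
      have h1 : 0 ≤ (τ.im - 1) * (qf M (toR n) - 1) :=
        mul_nonneg (by linarith) (by linarith)
      have h2 : 0 ≤ π * ((τ.im - 1) * (qf M (toR n) - 1)) := mul_nonneg Real.pi_pos.le h1
      linarith
  have hs2 := hs.mul_left (Real.exp π * Real.exp (-π * τ.im))
  have h3 := tsum_of_norm_bounded hs2.hasSum hle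
  rw [hsplit]
  refine h3.trans (le_of_eq ?_)
  rw [tsum_mul_left]
  ring

/-- The finite set of vectors of norm one. -/
lemma finite_norm_one {G : Matrix ι ι ℤ} {M : Matrix ι ι ℝ} (hM : Mᵀ * M = rl G)
    (hdet : M.det ≠ 0) : {v : ι → ℤ | qz G v = 1}.Finite := by
  have hs := summable_exp_qf M hdet 0 one_pos
  simp only [zero_add] at hs
  have h1 := hs.tendsto_cofinite_zero
  have h2 : ∀ᶠ v : ι → ℤ in cofinite, Real.exp (-π * 1 * qf M (toR v)) < Real.exp (-π) :=
    h1.eventually (gt_mem_nhds (Real.exp_pos _))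
  rw [Filter.eventually_cofinite] at h2
  refine h2.subset fun v hv => ?_
  simp only [Set.mem_ofPred_eq] at hv ⊢
  rw [qf_toR hM, hv]
  simp

/-- Number of norm-one vectors. -/
def r1 (G : Matrix ι ι ℤ) : ℕ := Set.ncard {v : ι → ℤ | qz G v = 1}

/-- Asymptotic expansion of the theta series. -/
lemma tendsto_Th_real {G : Matrix ι ι ℤ} (hp : ZPos G) {M : Matrix ι ι ℝ} (hM : Mᵀ * M = rl G)
    (hdet : M.det ≠ 0) :
    Tendsto (fun t : ℝ => (Th M (I * t) 0 - 1) * cexp (π * t)) atTop (𝓝 (r1 G : ℂ)) := by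
  have hs := summable_exp_qf M hdet 0 one_pos
  simp only [zero_add] at hs
  have hfin := finite_norm_one hM hdet
  set f : ℝ → (ι → ℤ) → ℂ := fun t n => if n = 0 then 0 else
    cexp (-π * t * ((qz G n : ℤ) - 1)) with hf
  set g : (ι → ℤ) → ℂ := fun n => if qz G n = 1 then 1 else 0 with hg
  have hq1 : ∀ n : ι → ℤ, n ≠ 0 → (1 : ℝ) ≤ (qz G n : ℤ) := fun n hn => by
    exact_mod_cast hp n hn
  have key : Tendsto (fun t => ∑' n, f t n) atTop (𝓝 (∑' n, g n)) := by
    refine tendsto_tsum_of_dominated_convergence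
      (bound := fun n => Real.exp π * Real.exp (-π * 1 * qf M (toR n))) (hs.mul_left _) ?_ ?_
    · intro n
      by_cases hn : n = 0
      · have : g n = 0 := by
          simp only [hg, hn]
          simp [qz]
        rw [this]
        simp only [hf, hn, if_true]
        exact tendsto_const_nhds
      · by_cases hq : qz G n = 1
        · have e : (fun t : ℝ => f t n) = fun _ => (1 : ℂ) := by
            funext t
            simp [hf, hn, hq]
          have e2 : g n = 1 := by simp [hg, hq]
          rw [e, e2]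
          exact tendsto_const_nhds
        · have e2 : g n = 0 := by simp [hg, hq]
          rw [e2]
          have hq2 : (0 : ℝ) < (qz G n : ℤ) - 1 := by
            have h1 := hp n hn
            have : (1 : ℤ) < qz G n := by omega
            have h2 : (1 : ℝ) < (qz G n : ℤ) := by exact_mod_cast this
            linarith
          rw [tendsto_zero_iff_norm_tendsto_zero]
          have e : (fun t : ℝ => ‖f t n‖) = fun t : ℝ => Real.exp (-(π * ((qz G n : ℤ) - 1)) * t) := by
            funext t
            simp only [hf, hn, if_false]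
            rw [Complex.norm_exp]
            congr 1
            have : (-π * t * ((qz G n : ℤ) - 1) : ℂ) = ((-(π * ((qz G n : ℤ) - 1)) * t : ℝ) : ℂ) := by
              push_cast; ring
            rw [this, Complex.ofReal_re]
          rw [e]
          have hpos : 0 < π * (((qz G n : ℤ) : ℝ) - 1) := mul_pos Real.pi_pos hq2
          have h3 := Real.tendsto_exp_neg_atTop_nhds_zero.comp
            (tendsto_id.const_mul_atTop hpos)
          refine h3.congr fun t => ?_
          simp only [Function.comp, id]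
          congr 1
          ring
    · filter_upwards [eventually_ge_atTop 1] with t ht
      intro n
      simp only [hf]
      split_ifs with hn
      · rw [norm_zero]; positivity
      · rw [Complex.norm_exp, ← Real.exp_add]
        refine Real.exp_le_exp.2 ?_
        have : (-π * t * ((qz G n : ℤ) - 1) : ℂ) = ((-π * t * ((qz G n : ℤ) - 1) : ℝ) : ℂ) := by
          push_cast; ring
        rw [this, Complex.ofReal_re, qf_toR hM]
        have h1 := hq1 n hn
        have h2 : 0 ≤ π * ((t - 1) * (((qz G n : ℤ) : ℝ) - 1)) :=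
          mul_nonneg Real.pi_pos.le (mul_nonneg (by linarith) (by linarith))
        linarith
  have hgsum : ∑' n, g n = (r1 G : ℂ) := by
    rw [tsum_eq_sum (s := hfin.toFinset)]
    · have : ∀ n ∈ hfin.toFinset, g n = 1 := by
        intro n hn
        have : qz G n = 1 := by simpa using hn
        simp [hg, this]
      rw [Finset.sum_congr rfl this]
      simp only [Finset.sum_const, nsmul_eq_mul, mul_one]
      rw [r1, Set.ncard_eq_toFinset_card _ hfin]
    · intro n hn
      have : ¬ qz G n = 1 := by simpa using hn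
      simp [hg, this]
  rw [hgsum] at key
  refine key.congr' ?_
  filter_upwards [eventually_gt_atTop 0] with t ht
  have hτ0 : 0 < (I * (t : ℂ)).im := by simpa using ht
  have hsum := (locSum_gau M hdet hτ0).summable 0
  have h0 : gau M (I * t) (0 + toR (0 : ι → ℤ)) = 1 := by
    rw [gau_apply, zero_add, qf_toR hM]
    simp [qz]
  have hsplit : Th M (I * t) 0 - 1 =
      ∑' n : ι → ℤ, (if n = 0 then 0 else gau M (I * t) (0 + toR n)) := by
    unfold Th
    rw [hsum.tsum_eq_add_tsum_ite 0, h0]
    ring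
  rw [hsplit, ← tsum_mul_right]
  refine tsum_congr fun n => ?_
  simp only [hf]
  split_ifs with hn
  · rw [zero_mul]
  · rw [gau_apply, zero_add, qf_toR hM, ← Complex.exp_add]
    congr 1
    push_cast
    have : (π * I * (I * t) * ((qz G n : ℤ) : ℂ) : ℂ) = (I * I) * (π * t * ((qz G n : ℤ) : ℂ)) := by
      ring
    rw [this, I_mul_I]
    ring

end

end Vale.Agent.P267.H775
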