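import Vale.Agent.P267.H775.Main

/-!
Van der Blij's lemma for definite unimodular lattices: a characteristic vector `w` satisfies
`w·w ≡ n mod 8`; consequences in rank at most `7`; the version of Elkies' theorem with
`χ ≤ 0`.
-/

open MeasureTheory Set Complex TopologicalSpace Filter Matrix Module
open scoped Real Topology

namespace Vale.Agent.P267.H775

noncomputable section

set_option linter.unusedSectionVars false

variable {ι : Type*} [Fintype ι] [DecidableEq ι]

lemma abs_arg_I_div {τ : ℂ} (hτ : 0 < τ.im) : |(I / τ).arg| < π / 2 := by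
  have hτ0 : τ ≠ 0 := by rintro rfl; simp at hτ
  rw [Complex.abs_arg_lt_pi_div_two_iff]
  left
  have : (I / τ).re = τ.im / normSq τ := by
    rw [div_eq_mul_inv, mul_re, I_re, I_im, inv_re, inv_im]
    ring
  rw [this]
  exact div_pos hτ (normSq_pos.2 hτ0)

/-- The cocycle relation for the square roots. -/
lemma sqrt_cocycle {τ : ℂ} (hτ : 0 < τ.im) (n : ℕ) :
    (I / (τ + 1)) ^ ((n : ℂ) / 2) =
      cexp (π * I * n / 4) * ((I / (-1 / τ - 1)) ^ ((n : ℂ) / 2) * (I / τ) ^ ((n : ℂ) / 2)) := by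
  have hτ0 : τ ≠ 0 := by rintro rfl; simp at hτ
  have h1 : 0 < (τ + 1).im := by simpa using hτ
  have h10 : τ + 1 ≠ 0 := by intro h; rw [h] at h1; simp at h1
  have h2 : 0 < (-1 / τ - 1 : ℂ).im := by
    have := Dat.im_S hτ
    simpa using this
  have h20 : (-1 / τ - 1 : ℂ) ≠ 0 := by intro h; rw [h] at h2; simp at h2
  have a0 : I / τ ≠ 0 := div_ne_zero I_ne_zero hτ0
  have a1 : I / (τ + 1) ≠ 0 := div_ne_zero I_ne_zero h10
  have a2 : I / (-1 / τ - 1) ≠ 0 := div_ne_zero I_ne_zero h20
  -- logarithms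
  have key : Complex.log (I / (τ + 1)) = Complex.log (I / (-1 / τ - 1)) + Complex.log (I / τ) +
      π / 2 * I := by
    have hexp : cexp (Complex.log (I / (τ + 1))) =
        cexp (Complex.log (I / (-1 / τ - 1)) + Complex.log (I / τ) + π / 2 * I) := by
      rw [Complex.exp_add, Complex.exp_add, Complex.exp_log a1, Complex.exp_log a2,
        Complex.exp_log a0, Complex.exp_pi_div_two_mul_I]
      have e : (-1 / τ - 1 : ℂ) = -(τ + 1) / τ := by field_simp; ring
      rw [e]
      field_simp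
      rw [I_sq]
      ring
    rw [Complex.exp_eq_exp_iff_exists_int] at hexp
    obtain ⟨k, hk⟩ := hexp
    have him := congrArg Complex.im hk
    have e1 := abs_lt.1 (abs_arg_I_div h1)
    have e2 := abs_lt.1 (abs_arg_I_div h2)
    have e3 := abs_lt.1 (abs_arg_I_div hτ)
    have him2 : (I / (τ + 1)).arg = (I / (-1 / τ - 1)).arg + (I / τ).arg + π / 2 + k * (2 * π) := by
      have : (Complex.log (I / (-1 / τ - 1)) + Complex.log (I / τ) + π / 2 * I +
          k * (2 * π * I) : ℂ).im = (I / (-1 / τ - 1)).arg + (I / τ).arg + π / 2 +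
            k * (2 * π) := by
        have e4 : ((π : ℂ) / 2 * I).im = π / 2 := by
          have : ((π : ℂ) / 2 * I) = ((π / 2 : ℝ) : ℂ) * I := by push_cast; ring
          rw [this]; simp
        have e5 : ((k : ℂ) * (2 * π * I)).im = k * (2 * π) := by
          have : ((k : ℂ) * (2 * π * I)) = ((k * (2 * π) : ℝ) : ℂ) * I := by push_cast; ring
          rw [this]; simp
        simp only [add_im, Complex.log_im, e4, e5]
      rw [← this, ← hk, Complex.log_im]
    have hpi := Real.pi_pos
    have hk0 : k = 0 := by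
      have u1 : (k : ℝ) * (2 * π) < 1 * (2 * π) := by linarith
      have u2 : (-1 : ℝ) * (2 * π) < (k : ℝ) * (2 * π) := by linarith
      have v1 : (k : ℝ) < 1 := lt_of_mul_lt_mul_right u1 (by positivity)
      have v2 : (-1 : ℝ) < k := lt_of_mul_lt_mul_right u2 (by positivity)
      have w1 : k < 1 := by exact_mod_cast v1
      have w2 : -1 < k := by exact_mod_cast v2
      omega
    rw [hk, hk0]
    simp
  rw [cpow_def_of_ne_zero a1, cpow_def_of_ne_zero a2, cpow_def_of_ne_zero a0, key,
    ← Complex.exp_add, ← Complex.exp_add]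
  congr 1
  ring

lemma Th_half_ne_zero {M : Matrix ι ι ℝ} (hM : M.det ≠ 0) (x : ι → ℝ) :
    Th M I x ≠ 0 := by
  have hI : 0 < (I : ℂ).im := by simp
  have hs := summable_exp_qf M hM x one_pos
  have h1 : Th M I x = ((∑' n : ι → ℤ, Real.exp (-π * 1 * qf M (x + toR n)) : ℝ) : ℂ) := by
    unfold Th
    rw [Complex.ofReal_tsum]
    refine tsum_congr fun n => ?_
    rw [gau_apply, Complex.ofReal_exp]
    congr 1
    push_cast
    have : (π * I * I * (qf M (x + toR n) : ℝ) : ℂ) = (I * I) * (π * (qf M (x + toR n) : ℝ)) := by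
      ring
    rw [this, I_mul_I]
    ring
  rw [h1, Complex.ofReal_ne_zero]
  exact (hs.tsum_pos (fun n => (Real.exp_pos _).le) 0 (Real.exp_pos _)).ne'

/-- **Van der Blij's lemma**, matrix form. -/
theorem vdb_matrix {G : Matrix ι ι ℤ} (hs : Gᵀ = G) (hGd : G.det = 1) (hp : ZPos G)
    {w : ι → ℤ} (hw : IsChar G w) : (8 : ℤ) ∣ qz G w - Fintype.card ι := by
  obtain ⟨M, hM, hd⟩ := exists_sqrt G hs hp hGd
  have hdet : M.det ≠ 0 := by
    intro h; rw [h] at hd; simp at hd
  have hI : 0 < (I : ℂ).im := by simp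
  set x : ι → ℝ := (1 / 2 : ℝ) • toR w with hx
  -- the two expressions for `Th M (I + 1) x`
  have h1 := Th_half_add_one hs hM hw I
  have him1 : 0 < (I + 1 : ℂ).im := by simp
  have h2 := Th_half_S hs hGd hM hd hw him1
  have hσ : 0 < (-1 / I - 1 : ℂ).im := by
    simp
  have h3 := Th_zero_S hGd hM hd hσ
  have e1 : (-1 / (-1 / I - 1) : ℂ) = -1 / (I + 1) + 1 := by
    have : (-1 / I - 1 : ℂ) ≠ 0 := by intro h; rw [h] at hσ; simp at hσ
    have h4 : (I + 1 : ℂ) ≠ 0 := by intro h; rw [h] at him1; simp at him1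
    have e : (-1 / I - 1 : ℂ) = -(I + 1) / I := by
      field_simp; ring
    rw [e]
    field_simp
    ring
  rw [e1] at h3
  have h4 := Th_half_S hs hGd hM hd hw hI
  have e2 : (-1 / I + 1 : ℂ) = (-1 / I - 1) + 2 := by ring
  rw [e2, Th_zero_add_two hM] at h4
  -- h1 : C(I+1) = ζ C(I); h2 : C(I+1) = s1 * A(y), h3 : A(σ) = s2 * A(y), h4 : C(I) = s3 * A(σ)
  have hne := Th_half_ne_zero hdet x
  have hcoc := sqrt_cocycle hI (Fintype.card ι)
  rw [← hx] at h1 h2 h4
  rw [h1, h4, hcoc, h3] at h2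
  have hne2 : (I / I) ^ ((Fintype.card ι : ℂ) / 2) * ((I / (-1 / I - 1)) ^
      ((Fintype.card ι : ℂ) / 2) * Th M (-1 / (I + 1) + 1) 0) ≠ 0 := by
    rw [← h3, ← h4]; exact hne
  have h5 : cexp (π * I * (qz G w : ℤ) / 4) = cexp (π * I * (Fintype.card ι : ℕ) / 4) := by
    refine mul_right_cancel₀ hne2 ?_
    rw [h2]
    ring
  rw [Complex.exp_eq_exp_iff_exists_int] at h5
  obtain ⟨k, hk⟩ := h5
  refine ⟨k, ?_⟩
  have hpi : (π : ℂ) * I ≠ 0 := mul_ne_zero (by exact_mod_cast Real.pi_ne_zero) I_ne_zero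
  have h6 : ((qz G w : ℤ) : ℂ) = (Fintype.card ι : ℕ) + 8 * k := by
    refine mul_left_cancel₀ hpi ?_
    linear_combination 4 * hk
  have h7 : (qz G w : ℤ) = (Fintype.card ι : ℕ) + 8 * k := by exact_mod_cast h6
  rw [h7]
  ring

end

set_option linter.unusedSectionVars false

variable {L : Type*} [AddCommGroup L] [Module.Free ℤ L] [Module.Finite ℤ L]

/-- Passage from modules to matrices. -/
lemma exists_gram (B : LinearMap.BilinForm ℤ L) (hs : ∀ x y, B x y = B y x)
    (hu : Function.Bijective (B : L → Module.Dual ℤ L)) :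
    ∃ (c : L ≃ₗ[ℤ] (Fin (finrank ℤ L) → ℤ)) (G : Matrix (Fin (finrank ℤ L)) (Fin (finrank ℤ L)) ℤ),
      Gᵀ = G ∧ IsUnit G.det ∧ ∀ x y, B x y = (c x) ⬝ᵥ (G *ᵥ (c y)) := by
  classical
  let c : Basis (Fin (Module.finrank ℤ L)) ℤ L := Module.finBasis ℤ L
  obtain ⟨G, hG⟩ : ∃ G : Matrix (Fin (finrank ℤ L)) (Fin (finrank ℤ L)) ℤ,
    G = Matrix.of fun i j => B (c i) (c j) := ⟨_, rfl⟩
  have hB : ∀ u v : Fin (finrank ℤ L) → ℤ,
      B (c.equivFun.symm u) (c.equivFun.symm v) = u ⬝ᵥ (G *ᵥ v) := by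
    intro u v
    simp only [Basis.equivFun_symm_apply, map_sum, LinearMap.sum_apply, map_smul,
      LinearMap.smul_apply, smul_eq_mul, dotProduct, mulVec, hG, Matrix.of_apply]
    simp only [Finset.mul_sum]
    rw [Finset.sum_comm]
    refine Finset.sum_congr rfl fun i _ => Finset.sum_congr rfl fun j _ => ?_
    ring
  refine ⟨c.equivFun, G, ?_, ?_, fun x y => ?_⟩
  · ext i j
    rw [transpose_apply, hG, Matrix.of_apply, Matrix.of_apply, hs]
  · let e : L ≃ₗ[ℤ] Module.Dual ℤ L := LinearEquiv.ofBijective B hu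
    have h1 := LinearEquiv.isUnit_det e c c.dualBasis
    have h2 : LinearMap.toMatrix c c.dualBasis (e : L →ₗ[ℤ] Module.Dual ℤ L) = G := by
      ext i j
      rw [LinearMap.toMatrix_apply, Basis.dualBasis_repr, hG, Matrix.of_apply, hs]
      rfl
    rw [h2] at h1
    exact h1
  · rw [← hB, LinearEquiv.symm_apply_apply, LinearEquiv.symm_apply_apply]

lemma det_eq_one {ι : Type*} [Fintype ι] [DecidableEq ι] {G : Matrix ι ι ℤ} (hs : Gᵀ = G)
    (hp : ZPos G) (hu : IsUnit G.det) : G.det = 1 := by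
  have hps : (rl G).PosSemidef := by
    refine Matrix.PosSemidef.of_dotProduct_mulVec_nonneg ?_ fun x => ?_
    · ext i j
      have := congrFun (congrFun hs i) j
      simp only [transpose_apply] at this
      simp [rl, this]
    · simpa using real_nonneg G hp x
  have h1 := hps.det_nonneg
  have h2 : (rl G).det = ((G.det : ℤ) : ℝ) := by
    have : (rl G) = (Int.castRingHom ℝ).mapMatrix G := rfl
    rw [this, ← RingHom.map_det]
    simp
  rw [h2] at h1
  have h3 : 0 ≤ G.det := by exact_mod_cast h1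
  rcases Int.isUnit_iff.1 hu with h | h
  · exact h
  · omega

/-- **Van der Blij's lemma** for positive definite lattices. -/
theorem vdb (B : LinearMap.BilinForm ℤ L) (hs : ∀ x y, B x y = B y x)
    (hu : Function.Bijective (B : L → Module.Dual ℤ L))
    (hp : ∀ x, x ≠ 0 → 0 < B x x) (w : L) (hw : ∀ x, (2 : ℤ) ∣ B x w - B x x) :
    (8 : ℤ) ∣ B w w - (finrank ℤ L : ℤ) := by
  obtain ⟨c, G, hG, hdet, hB⟩ := exists_gram B hs hu
  have hpos : ZPos G := by
    intro v hv
    have h1 := hp (c.symm v) (fun h => hv ((LinearEquiv.map_eq_zero_iff c.symm).1 h))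
    rw [hB, LinearEquiv.apply_symm_apply] at h1
    exact h1
  have hchar : IsChar G (c w) := by
    intro v
    have h1 := hw (c.symm v)
    rw [hB, hB, LinearEquiv.apply_symm_apply] at h1
    exact h1
  have h2 := vdb_matrix hG (det_eq_one hG hpos hdet) hpos hchar
  rw [Fintype.card_fin] at h2
  rw [hB]
  exact h2

/-- **Van der Blij's lemma** for negative definite lattices. -/
theorem vdb_neg (B : LinearMap.BilinForm ℤ L) (hs : ∀ x y, B x y = B y x)
    (hu : Function.Bijective (B : L → Module.Dual ℤ L))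
    (hp : ∀ x, x ≠ 0 → B x x < 0) (w : L) (hw : ∀ x, (2 : ℤ) ∣ B x w - B x x) :
    (8 : ℤ) ∣ B w w + (finrank ℤ L : ℤ) := by
  have h := vdb (-B) (fun x y => by simp [hs x y])
    (by
      have h : (⇑(-B) : L → Module.Dual ℤ L) = (fun f => -f) ∘ B := by
        funext x
        simp
      rw [h]
      exact (Equiv.neg (Module.Dual ℤ L)).bijective.comp hu)
    (fun x hx => by
      have := hp x hx
      simp only [LinearMap.neg_apply]
      omega) w
    (fun x => by
      have h := hw x
      simp only [LinearMap.neg_apply]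
      have h2 : -(B x) w - -(B x) x = -((B x) w - (B x) x) := by ring
      rw [h2]
      exact (dvd_neg).2 h)
  simp only [LinearMap.neg_apply] at h
  have h2 : B w w + (finrank ℤ L : ℤ) = -(-(B w) w - (finrank ℤ L : ℤ)) := by ring
  rw [h2]
  exact (dvd_neg).2 h

/-- If the difference of two characteristic vectors is given, half of it exists. -/
lemma exists_half (B : LinearMap.BilinForm ℤ L)
    (hu : Function.Bijective (B : L → Module.Dual ℤ L)) (hs : ∀ x y, B x y = B y x) {z : L}
    (hz : ∀ x, (2 : ℤ) ∣ B x z) : ∃ y, z = (2 : ℤ) • y := by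
  -- the functional `x ↦ B x z / 2`
  have hz' : ∀ x, (2 : ℤ) ∣ B z x := fun x => by rw [hs]; exact hz x
  let f : Module.Dual ℤ L :=
    { toFun := fun x => B z x / 2
      map_add' := fun x y => by
        obtain ⟨a, ha⟩ := hz' x
        obtain ⟨b, hb⟩ := hz' y
        rw [map_add, ha, hb]
        omega
      map_smul' := fun m x => by
        obtain ⟨a, ha⟩ := hz' x
        simp only [map_smul, smul_eq_mul, RingHom.id_apply]
        rw [ha]
        rw [show m * (2 * a) = 2 * (m * a) by ring, Int.mul_ediv_cancel_left _ (by norm_num),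
          Int.mul_ediv_cancel_left _ (by norm_num)] }
  obtain ⟨y, hy⟩ := hu.2 f
  refine ⟨y, hu.1 ?_⟩
  ext x
  have h1 : B y x = B z x / 2 := congrArg (fun g : Module.Dual ℤ L => g x) hy
  obtain ⟨a, ha⟩ := hz' x
  rw [map_smul, LinearMap.smul_apply, h1, ha, Int.mul_ediv_cancel_left _ (by norm_num)]
  rfl

/-- **The canonical basis.** `B` is the (negative definite, unimodular) intersection form, `K` is
characteristic, `x·x ≤ x·K` for every `x` (that is, `χ(x) ≤ 0`), and either `K·K ≤ -n` or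
`n ≤ 7`. Then there is a basis `e` with `e i · e j = -δ`, `K·e i = -1`, `K = ∑ e i`,
and `K·K = -n`. -/
theorem canonical_basis (B : LinearMap.BilinForm ℤ L) (hs : ∀ x y, B x y = B y x)
    (hu : Function.Bijective (B : L → Module.Dual ℤ L))
    (hp : ∀ x, x ≠ 0 → B x x < 0) (K : L) (hK : ∀ x, (2 : ℤ) ∣ B x K - B x x)
    (hchi : ∀ x, B x x ≤ B x K)
    (hKK : B K K ≤ -(finrank ℤ L : ℤ) ∨ finrank ℤ L ≤ 7) :
    (∃ b : Basis (Fin (Module.finrank ℤ L)) ℤ L,
      (∀ i j, B (b i) (b j) = if i = j then -1 else 0) ∧ (∀ i, B K (b i) = -1) ∧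
      K = ∑ i, b i) ∧ B K K = -(finrank ℤ L : ℤ) := by
  have hKn : B K K ≤ -(finrank ℤ L : ℤ) := by
    rcases hKK with h | h
    · exact h
    · have h1 := vdb_neg B hs hu hp K hK
      have h2 : B K K ≤ 0 := by
        by_cases h0 : K = 0
        · rw [h0]; simp
        · exact (hp K h0).le
      have h3 : (finrank ℤ L : ℤ) ≤ 7 := by exact_mod_cast h
      obtain ⟨k, hk⟩ := h1
      omega
  -- every characteristic vector is `K - 2 x`
  have hlong : ∀ w : L, (∀ x, (2 : ℤ) ∣ B x w - B x x) → B w w ≤ B K K := by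
    intro w hw
    obtain ⟨y, hy⟩ := exists_half B hu hs (z := K - w) (fun x => by
      have h1 := dvd_sub (hK x) (hw x)
      have h2 : B x (K - w) = (B x K - B x x) - (B x w - B x x) := by
        rw [map_sub]; ring
      rw [h2]; exact h1)
    have hw2 : w = K - (2 : ℤ) • y := by rw [← hy]; abel
    rw [hw2]
    have h3 : B (K - (2 : ℤ) • y) (K - (2 : ℤ) • y) = B K K - 4 * B y K + 4 * B y y := by
      simp only [map_sub, LinearMap.sub_apply, map_smul, LinearMap.smul_apply, smul_eq_mul]
      rw [hs K y]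
      ring
    rw [h3]
    have := hchi y
    omega
  obtain ⟨b0, hb0⟩ := elkies_neg B hs hu hp (fun w hw => (hlong w hw).trans hKn)
  -- the sum of the basis vectors is characteristic of square `-n`
  have hrepr : ∀ x y : L, B x y = -∑ i, b0.repr x i * b0.repr y i := by
    intro x y
    conv_lhs => rw [← b0.sum_repr x, ← b0.sum_repr y]
    simp only [map_sum, LinearMap.sum_apply, map_smul, LinearMap.smul_apply, smul_eq_mul, hb0]
    rw [← Finset.sum_neg_distrib]
    refine Finset.sum_congr rfl fun i _ => ?_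
    rw [Finset.sum_eq_single i]
    · simp; ring
    · intro j _ hj
      simp [hj]
    · simp
  have hw0 : -(finrank ℤ L : ℤ) ≤ B K K := by
    have h1 : ∀ x, (2 : ℤ) ∣ B x (∑ i, b0 i) - B x x := by
      intro x
      have e : ∀ i, b0.repr (∑ j, b0 j) i = 1 := by
        intro i
        rw [map_sum, Finsupp.finsetSum_apply, Finset.sum_eq_single i]
        · simp
        · intro j _ hj
          simp [hj]
        · simp
      rw [hrepr x, hrepr x x]
      simp only [e, mul_one]
      have h2 : -∑ i, b0.repr x i - -∑ i, b0.repr x i * b0.repr x i =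
          ∑ i, (b0.repr x i * b0.repr x i - b0.repr x i) := by
        rw [Finset.sum_sub_distrib]; ring
      rw [h2]
      refine Finset.dvd_sum fun i _ => ?_
      rcases Int.even_or_odd (b0.repr x i) with ⟨k, hk⟩ | ⟨k, hk⟩
      · rw [hk]; exact ⟨2 * k ^ 2 - k, by ring⟩
      · rw [hk]; exact ⟨(2 * k + 1) * k, by ring⟩
    have h3 := hlong _ h1
    have h4 : B (∑ i, b0 i) (∑ i, b0 i) = -(finrank ℤ L : ℤ) := by
      rw [hrepr]
      have e : ∀ i, b0.repr (∑ j, b0 j) i = 1 := by
        intro i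
        rw [map_sum, Finsupp.finsetSum_apply, Finset.sum_eq_single i]
        · simp
        · intro j _ hj
          simp [hj]
        · simp
      simp only [e]
      simp
    rw [h4] at h3
    exact h3
  have hKeq : B K K = -(finrank ℤ L : ℤ) := le_antisymm hKn hw0
  exact ⟨elkies_canonical B hs hu hp (fun w hw => (hlong w hw).trans hKn) K hK hKeq, hKeq⟩

end Vale.Agent.P267.H775
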